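import Vale.Agent.P088.R2.H464.EP.Bd

/-!
# P088: iterated directional derivatives, second order operators in divergence form
-/

open Set Filter
open scoped ContDiff Topology Matrix

noncomputable section

namespace Vale.Agent.P088.R2.H973.W

open Vale.Agent.P088.LR Vale.Agent.P088.HY Vale.Agent.P088.R2.H961.GW
open Vale.Agent.P088.R2.H464.Cu

variable {n : ℕ}

/-- The size of the `j`-th derivative. -/
def Nk (j : ℕ) (W : VV n → ℝ) (z : VV n) : ℝ := ‖iteratedFDeriv ℝ j W z‖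

theorem Nk_nonneg (j : ℕ) (W : VV n → ℝ) (z : VV n) : 0 ≤ Nk j W z := norm_nonneg _

/-- Iterated directional derivatives. -/
def DD : List (VV n) → (VV n → ℝ) → VV n → ℝ
  | [], f => f
  | v :: l, f => fun z => fderiv ℝ (DD l f) z v

theorem DD_sm {U : Set (VV n)} (hU : IsOpen U) {f : VV n → ℝ} (hf : Sm U f) (l : List (VV n)) :
    Sm U (DD l f) := by
  induction l with
  | nil => exact hf
  | cons v l ih => exact ih.fd hU v

theorem DD_congr {U : Set (VV n)} (hU : IsOpen U) {f g : VV n → ℝ} (h : ∀ z ∈ U, f z = g z)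
    (l : List (VV n)) : ∀ z ∈ U, DD l f z = DD l g z := by
  induction l with
  | nil => exact h
  | cons v l ih =>
    intro z hz
    have h1 : DD l f =ᶠ[𝓝 z] DD l g := by
      filter_upwards [hU.mem_nhds hz] with w hw using ih w hw
    change fderiv ℝ (DD l f) z v = fderiv ℝ (DD l g) z v
    rw [h1.fderiv_eq]

theorem DD_append (l m : List (VV n)) (f : VV n → ℝ) : DD (l ++ m) f = DD l (DD m f) := by
  induction l with
  | nil => rfl
  | cons v l ih => rw [List.cons_append, DD, DD, ih]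

theorem DD_add {U : Set (VV n)} (hU : IsOpen U) {f g : VV n → ℝ} (hf : Sm U f) (hg : Sm U g)
    (l : List (VV n)) : ∀ z ∈ U, DD l (fun z => f z + g z) z = DD l f z + DD l g z := by
  induction l with
  | nil => exact fun _ _ => rfl
  | cons v l ih =>
    intro z hz
    have h1 : DD l (fun z => f z + g z) =ᶠ[𝓝 z] fun z => DD l f z + DD l g z := by
      filter_upwards [hU.mem_nhds hz] with w hw using ih w hw
    change fderiv ℝ (DD l fun z => f z + g z) z v = _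
    rw [h1.fderiv_eq, fderiv_fun_add ((DD_sm hU hf l).diff hU hz) ((DD_sm hU hg l).diff hU hz)]
    rfl

theorem DD_sum {α : Type*} {U : Set (VV n)} (hU : IsOpen U) (S : Finset α) {f : α → VV n → ℝ}
    (hf : ∀ a ∈ S, Sm U (f a)) (l : List (VV n)) :
    ∀ z ∈ U, DD l (fun z => ∑ a ∈ S, f a z) z = ∑ a ∈ S, DD l (f a) z := by
  induction l with
  | nil => exact fun _ _ => rfl
  | cons v l ih =>
    intro z hz
    have h1 : DD l (fun z => ∑ a ∈ S, f a z) =ᶠ[𝓝 z] fun z => ∑ a ∈ S, DD l (f a) z := by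
      filter_upwards [hU.mem_nhds hz] with w hw using ih w hw
    change fderiv ℝ (DD l fun z => ∑ a ∈ S, f a z) z v = _
    rw [h1.fderiv_eq, fderiv_fun_sum fun a ha => (DD_sm hU (hf a ha) l).diff hU hz]
    simp only [_root_.sum_apply]
    rfl

theorem DD_eq {U : Set (VV n)} (hU : IsOpen U) {f : VV n → ℝ} (hf : Sm U f) (l : List (VV n)) :
    ∀ z ∈ U, DD l f z = iteratedFDeriv ℝ l.length f z l.get := by
  induction l with
  | nil =>
    intro z _
    simp [DD]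
  | cons v l ih =>
    intro z hz
    have h1 : DD l f =ᶠ[𝓝 z] fun z => iteratedFDeriv ℝ l.length f z l.get := by
      filter_upwards [hU.mem_nhds hz] with w hw using ih w hw
    have h2 : DD (v :: l) f z = fderiv ℝ (fun z => iteratedFDeriv ℝ l.length f z l.get) z v := by
      rw [← h1.fderiv_eq]; rfl
    have h3 : DifferentiableAt ℝ (iteratedFDeriv ℝ l.length f) z := by
      have h4 : ContDiffAt ℝ 1 (iteratedFDeriv ℝ l.length f) z :=
        (hf.at hU hz).iteratedFDeriv_right (m := 1) (by exact_mod_cast le_top)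
      exact h4.differentiableAt (by norm_num)
    rw [h2, fderiv_continuousMultilinear_apply_const_apply h3]
    rfl

theorem DD_le {U : Set (VV n)} (hU : IsOpen U) {f : VV n → ℝ} (hf : Sm U f) {l : List (VV n)}
    (hl : ∀ v ∈ l, ‖v‖ ≤ 1) {z : VV n} (hz : z ∈ U) : |DD l f z| ≤ Nk l.length f z := by
  rw [DD_eq hU hf l z hz, ← Real.norm_eq_abs]
  refine (ContinuousMultilinearMap.le_opNorm _ _).trans ?_
  unfold Nk
  refine mul_le_of_le_one_right (norm_nonneg _) ?_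
  exact Finset.prod_le_one (fun i _ => norm_nonneg _) fun i _ => hl _ (List.get_mem _ _)

theorem hv_p {p : VV n →L[ℝ] V n} {g : V n → ℝ} {z : VV n} (hg : DifferentiableAt ℝ g (p z))
    (w : VV n) : Hv w (fun z => g (p z)) (fderiv ℝ g (p z) (p w)) z := by
  have h : HasFDerivAt (fun z : VV n => g (p z)) ((fderiv ℝ g (p z)).comp p) z :=
    HasFDerivAt.comp z hg.hasFDerivAt p.hasFDerivAt
  refine ⟨h.differentiableAt, ?_⟩
  rw [h.fderiv]; rfl

theorem hv_DD {U : Set (VV n)} (hU : IsOpen U) {W : VV n → ℝ} (hW : Sm U W) (l : List (VV n))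
    {z : VV n} (hz : z ∈ U) (w : VV n) : Hv w (DD l W) (DD (w :: l) W z) z :=
  ⟨(DD_sm hU hW l).diff hU hz, rfl⟩

/-- The derivative of a function on `V n` in the direction `w`. -/
def pv (w : V n) (a : V n → ℝ) (x : V n) : ℝ := fderiv ℝ a x w

theorem pv_sm {O : Set (V n)} (hO : IsOpen O) {a : V n → ℝ} (ha : ContDiffOn ℝ ∞ a O) (w : V n) :
    ContDiffOn ℝ ∞ (pv w a) O :=
  (ha.fderiv_of_isOpen hO (by norm_num)).clm_apply contDiffOn_const

theorem pv_zero (a : V n → ℝ) : pv 0 a = fun _ => 0 := by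
  funext x; simp [pv]

theorem pv_const (w : V n) (c : ℝ) : pv w (fun _ => c) = fun _ => 0 := by
  funext x; simp [pv]

/-- `a(q z) D_l W`. -/
def Tm (q : VV n →L[ℝ] V n) (a : V n → ℝ) (l : List (VV n)) (W : VV n → ℝ) (z : VV n) : ℝ :=
  a (q z) * DD l W z

section tm

variable {q : VV n →L[ℝ] V n} {a : V n → ℝ} {O : Set (V n)} {U : Set (VV n)} {W : VV n → ℝ}
  {z : VV n}

/-- The domain. -/
def Dm (q : VV n →L[ℝ] V n) (O : Set (V n)) (U : Set (VV n)) : Set (VV n) :=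
  {z | z ∈ U ∧ q z ∈ O}

theorem Dm_open (hO : IsOpen O) (hU : IsOpen U) : IsOpen (Dm q O U) :=
  hU.inter (hO.preimage q.continuous)

theorem Tm_sm (hU : IsOpen U) (ha : ContDiffOn ℝ ∞ a O) (hW : Sm U W)
    (l : List (VV n)) : Sm (Dm q O U) (Tm q a l W) :=
  (ha.comp q.contDiff.contDiffOn fun _ hz => hz.2).mul ((DD_sm hU hW l).mono fun _ hz => hz.1)

theorem Tm_d (hO : IsOpen O) (hU : IsOpen U) (ha : ContDiffOn ℝ ∞ a O) (hW : Sm U W)
    (l : List (VV n)) (w : VV n) (hz : z ∈ Dm q O U) :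
    DD [w] (Tm q a l W) z = Tm q (pv (q w) a) l W z + Tm q a (w :: l) W z :=
  ((hv_p (df_of hO ha hz.2) w).mul (hv_DD hU hW l hz.1 w)).e

theorem Tm_d2 (hO : IsOpen O) (hU : IsOpen U) (ha : ContDiffOn ℝ ∞ a O) (hW : Sm U W)
    (l : List (VV n)) (w' w : VV n) (hz : z ∈ Dm q O U) :
    DD [w', w] (Tm q a l W) z = Tm q (pv (q w') (pv (q w) a)) l W z +
      Tm q (pv (q w) a) (w' :: l) W z + (Tm q (pv (q w') a) (w :: l) W z +
        Tm q a (w' :: w :: l) W z) := by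
  have hD := Dm_open (q := q) hO hU
  have h0 : DD [w', w] (Tm q a l W) = DD [w'] (DD [w] (Tm q a l W)) := rfl
  rw [h0, DD_congr hD (fun z hz => Tm_d hO hU ha hW l w hz) [w'] z hz,
    DD_add hD (Tm_sm hU (pv_sm hO ha _) hW l) (Tm_sm hU ha hW (w :: l)) [w'] z hz,
    Tm_d hO hU (pv_sm hO ha _) hW l w' hz, Tm_d hO hU ha hW (w :: l) w' hz]

theorem Tm_le (hU : IsOpen U) (hW : Sm U W) {l : List (VV n)} (hl : ∀ v ∈ l, ‖v‖ ≤ 1)
    (hz : z ∈ U) {c : ℝ} (hc : |a (q z)| ≤ c) : |Tm q a l W z| ≤ c * Nk l.length W z := by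
  unfold Tm
  rw [abs_mul]
  exact mul_le_mul hc (DD_le hU hW hl hz) (abs_nonneg _) ((abs_nonneg _).trans hc)

end tm

/-- Smooth, symmetric, near `1`, with three derivatives. -/
structure N3 (O : Set (V n)) (ε δ₁ δ₂ δ₃ : ℝ) (s : MF n) : Prop where
  sm : ∀ i j, ContDiffOn ℝ ∞ (fun x => s x i j) O
  b0 : ∀ x ∈ O, ∀ i j, |s x i j - (1 : Matrix (Fin n) (Fin n) ℝ) i j| ≤ ε
  b1 : ∀ x ∈ O, ∀ k i j, |pd k (fun y => s y i j) x| ≤ δ₁
  b2 : ∀ x ∈ O, ∀ l k i j, |pd l (pd k (fun y => s y i j)) x| ≤ δ₂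
  b3 : ∀ x ∈ O, ∀ m l k i j, |pd m (pd l (pd k (fun y => s y i j))) x| ≤ δ₃

/-- `∑ (s_ij(q z) ∂_i ∂_j W + (∂_i s_ij)(q z) ∂_j W)`. -/
def Ld (q : VV n →L[ℝ] V n) (e : Fin n → VV n) (s : MF n) (W : VV n → ℝ) (z : VV n) : ℝ :=
  ∑ i, ∑ j, (Tm q (fun x => s x i j) [e i, e j] W z +
    Tm q (pv (q (e i)) fun x => s x i j) [e j] W z)

theorem Ld_sm {q : VV n →L[ℝ] V n} {O : Set (V n)} {U : Set (VV n)} {W : VV n → ℝ} {s : MF n}
    (hO : IsOpen O) (hs : ∀ i j, ContDiffOn ℝ ∞ (fun x => s x i j) O) (hU : IsOpen U)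
    (hW : Sm U W) (e : Fin n → VV n) : Sm (Dm q O U) (Ld q e s W) :=
  Sm.sum _ fun i _ => Sm.sum _ fun j _ => (Tm_sm hU (hs i j) hW _).add
    (Tm_sm hU (pv_sm hO (hs i j) _) hW _)

/-- The derivatives of `Λ W`. -/
theorem Ld_DD {q : VV n →L[ℝ] V n} {O : Set (V n)} {U : Set (VV n)} {W : VV n → ℝ} {s : MF n}
    (hO : IsOpen O) (hs : ∀ i j, ContDiffOn ℝ ∞ (fun x => s x i j) O) (hU : IsOpen U)
    (hW : Sm U W) (e : Fin n → VV n) (m : List (VV n)) {z : VV n} (hz : z ∈ Dm q O U) :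
    DD m (Ld q e s W) z = ∑ i, ∑ j, (DD m (Tm q (fun x => s x i j) [e i, e j] W) z +
      DD m (Tm q (pv (q (e i)) fun x => s x i j) [e j] W) z) := by
  have hD := Dm_open (q := q) hO hU
  have h1 : ∀ i j, Sm (Dm q O U) (Tm q (fun x => s x i j) [e i, e j] W) := fun i j =>
    Tm_sm hU (hs i j) hW _
  have h2 : ∀ i j, Sm (Dm q O U) (Tm q (pv (q (e i)) fun x => s x i j) [e j] W) := fun i j =>
    Tm_sm hU (pv_sm hO (hs i j) _) hW _
  have e1 : Ld q e s W = fun z => ∑ i, (fun z => ∑ j, (fun z =>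
      Tm q (fun x => s x i j) [e i, e j] W z +
        Tm q (pv (q (e i)) fun x => s x i j) [e j] W z) z) z := rfl
  rw [e1, DD_sum hD _ (fun i _ => Sm.sum _ fun j _ => (h1 i j).add (h2 i j)) m z hz]
  refine Finset.sum_congr rfl fun i _ => ?_
  rw [DD_sum hD _ (fun j _ => (h1 i j).add (h2 i j)) m z hz]
  exact Finset.sum_congr rfl fun j _ => DD_add hD (h1 i j) (h2 i j) m z hz

theorem sum_one (F : Fin n → Fin n → ℝ) :
    ∑ i, ∑ j, (1 : Matrix (Fin n) (Fin n) ℝ) i j * F i j = ∑ i, F i i := by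
  refine Finset.sum_congr rfl fun i _ => ?_
  simp [Matrix.one_apply]

theorem one_le1 (i j : Fin n) : |(1 : Matrix (Fin n) (Fin n) ℝ) i j| ≤ 1 := by
  rw [Matrix.one_apply]; split_ifs <;> simp

/-- Directions: `q` maps them to basis vectors or to zero. -/
def Dir (q : VV n →L[ℝ] V n) (w : VV n) : Prop :=
  ‖w‖ ≤ 1 ∧ (q w = 0 ∨ ∃ k, q w = Pi.single k 1)

theorem pv_single (k : Fin n) (a : V n → ℝ) : pv (Pi.single k 1) a = pd k a := rfl

section bd

variable {q : VV n →L[ℝ] V n} {e : Fin n → VV n} {s : MF n} {O : Set (V n)}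
  {U : Set (VV n)} {W : VV n → ℝ} {z : VV n} {ε δ₁ δ₂ δ₃ : ℝ}

theorem N3.d1 (h : N3 O ε δ₁ δ₂ δ₃ s) (hδ : 0 ≤ δ₁) {w : VV n} (hw : Dir q w) {x : V n}
    (hx : x ∈ O) (i j : Fin n) : |pv (q w) (fun x => s x i j) x| ≤ δ₁ := by
  rcases hw.2 with h0 | ⟨k, hk⟩
  · rw [h0, pv_zero]; simpa using hδ
  · rw [hk, pv_single]; exact h.b1 x hx k i j

theorem N3.d2 (h : N3 O ε δ₁ δ₂ δ₃ s) (hδ : 0 ≤ δ₂) {w w' : VV n} (hw : Dir q w)
    (hw' : Dir q w') {x : V n} (hx : x ∈ O) (i j : Fin n) :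
    |pv (q w') (pv (q w) fun x => s x i j) x| ≤ δ₂ := by
  rcases hw'.2 with h0' | ⟨k', hk'⟩
  · rw [h0', pv_zero]; simpa using hδ
  rcases hw.2 with h0 | ⟨k, hk⟩
  · rw [h0, pv_zero]; simpa [pv] using hδ
  · rw [hk, hk', pv_single, pv_single]; exact h.b2 x hx k' k i j

theorem N3.d3 (h : N3 O ε δ₁ δ₂ δ₃ s) (hδ : 0 ≤ δ₃) {w w' w'' : VV n} (hw : Dir q w)
    (hw' : Dir q w') (hw'' : Dir q w'') {x : V n} (hx : x ∈ O) (i j : Fin n) :
    |pv (q w'') (pv (q w') (pv (q w) fun x => s x i j)) x| ≤ δ₃ := by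
  rcases hw''.2 with h0' | ⟨k'', hk''⟩
  · rw [h0', pv_zero]; simpa using hδ
  rcases hw'.2 with h0' | ⟨k', hk'⟩
  · rw [h0', pv_zero, pv_const]; simpa using hδ
  rcases hw.2 with h0 | ⟨k, hk⟩
  · rw [h0, pv_zero, pv_const, pv_const]; simpa using hδ
  · rw [hk, hk', hk'', pv_single, pv_single, pv_single]; exact h.b3 x hx k'' k' k i j

end bd

end Vale.Agent.P088.R2.H973.W
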