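import Vale.Agent.P088.R2.H973.W.Sta
import Vale.Agent.P088.R2.H973.W.DD
import Vale.Agent.P088.R2.H551.E.Cur
import Vale.Agent.P088.R2.H464.EP.CmpS

/-!
# P088: perturbation of the star density (EP-PERT, pointwise part)

`sta` in the slots `sx s₁`, `sy s₂` with the weight `W` against `sx s₁'`, `sy s₂'` with the weight
`W'`: if the data are `ε`-close (`s` in `C³`, `v` in `C¹`, `W` in `C⁴`, only derivatives of order
`1, …, 4`) and bounded by `B`, the difference is at most `C(n, B) ε (|X a|² + |X b|² + a² + b²)`.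
-/

open Set Filter
open scoped ContDiff Topology Matrix

noncomputable section

namespace Vale.Agent.P088.R2.H973.W

open Vale.Agent.P088.LR Vale.Agent.P088.HY Vale.Agent.P088.R2.H961.GW
open Vale.Agent.P088.R2.H644 Vale.Agent.P088.R2.H551.E Vale.Agent.P088.R2.H464.Cu

variable {n : ℕ}

/-- Two tensors, smooth on `O`, bounded and `ε`-close with three derivatives at `x`. -/
structure S3 (O : Set (V n)) (x : V n) (B ε : ℝ) (s s' : MF n) : Prop where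
  sm : ∀ i j, ContDiffOn ℝ ∞ (fun x => s x i j) O
  sm' : ∀ i j, ContDiffOn ℝ ∞ (fun x => s' x i j) O
  b0 : ∀ i j, |s x i j| ≤ B ∧ |s' x i j| ≤ B ∧ |s x i j - s' x i j| ≤ ε
  b1 : ∀ k i j, |pd k (fun y => s y i j) x| ≤ B ∧ |pd k (fun y => s' y i j) x| ≤ B ∧
    |pd k (fun y => s y i j) x - pd k (fun y => s' y i j) x| ≤ ε
  b2 : ∀ l k i j, |pd l (pd k (fun y => s y i j)) x| ≤ B ∧
    |pd l (pd k (fun y => s' y i j)) x| ≤ B ∧
    |pd l (pd k (fun y => s y i j)) x - pd l (pd k (fun y => s' y i j)) x| ≤ ε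
  b3 : ∀ m l k i j, |pd m (pd l (pd k (fun y => s y i j))) x| ≤ B ∧
    |pd m (pd l (pd k (fun y => s' y i j))) x| ≤ B ∧
    |pd m (pd l (pd k (fun y => s y i j))) x - pd m (pd l (pd k (fun y => s' y i j))) x| ≤ ε

/-- Iterated directional derivatives. -/
def DG {E : Type*} [NormedAddCommGroup E] [NormedSpace ℝ E] : List E → (E → ℝ) → E → ℝ
  | [], f => f
  | v :: l, f => fun z => fderiv ℝ (DG l f) z v

section dg

variable {E : Type*} [NormedAddCommGroup E] [NormedSpace ℝ E] {U : Set E} {f g : E → ℝ}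

theorem DG_sm (hU : IsOpen U) (hf : Sm U f) (l : List E) : Sm U (DG l f) := by
  induction l with
  | nil => exact hf
  | cons v l ih => exact ih.fd hU v

theorem DG_sub (hU : IsOpen U) (hf : Sm U f) (hg : Sm U g) (l : List E) :
    ∀ z ∈ U, DG l (fun z => f z - g z) z = DG l f z - DG l g z := by
  induction l with
  | nil => exact fun _ _ => rfl
  | cons v l ih =>
    intro z hz
    have h1 : DG l (fun z => f z - g z) =ᶠ[𝓝 z] fun z => DG l f z - DG l g z := by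
      filter_upwards [hU.mem_nhds hz] with w hw using ih w hw
    change fderiv ℝ (DG l fun z => f z - g z) z v = _
    rw [h1.fderiv_eq, fderiv_fun_sub ((DG_sm hU hf l).diff hU hz) ((DG_sm hU hg l).diff hU hz)]
    rfl

theorem DG_eq (hU : IsOpen U) (hf : Sm U f) (l : List E) :
    ∀ z ∈ U, DG l f z = iteratedFDeriv ℝ l.length f z l.get := by
  induction l with
  | nil =>
    intro z _
    simp [DG]
  | cons v l ih =>
    intro z hz
    have h1 : DG l f =ᶠ[𝓝 z] fun z => iteratedFDeriv ℝ l.length f z l.get := by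
      filter_upwards [hU.mem_nhds hz] with w hw using ih w hw
    have h2 : DG (v :: l) f z = fderiv ℝ (fun z => iteratedFDeriv ℝ l.length f z l.get) z v := by
      rw [← h1.fderiv_eq]; rfl
    have h3 : DifferentiableAt ℝ (iteratedFDeriv ℝ l.length f) z := by
      have h4 : ContDiffAt ℝ 1 (iteratedFDeriv ℝ l.length f) z :=
        (hf.at hU hz).iteratedFDeriv_right (m := 1) (by exact_mod_cast le_top)
      exact h4.differentiableAt (by norm_num)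
    rw [h2, fderiv_continuousMultilinear_apply_const_apply h3]
    rfl

theorem DG_le (hU : IsOpen U) (hf : Sm U f) {l : List E} (hl : ∀ v ∈ l, ‖v‖ ≤ 1) {z : E}
    (hz : z ∈ U) : |DG l f z| ≤ ‖iteratedFDeriv ℝ l.length f z‖ := by
  rw [DG_eq hU hf l z hz, ← Real.norm_eq_abs]
  refine (ContinuousMultilinearMap.le_opNorm _ _).trans ?_
  refine mul_le_of_le_one_right (norm_nonneg _) ?_
  exact Finset.prod_le_one (fun i _ => norm_nonneg _) fun i _ => hl _ (List.get_mem _ _)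

end dg

/-- The hypotheses on the tensors from the norms of the iterated derivatives. -/
theorem S3.of_iter {O : Set (V n)} {x : V n} {B ε : ℝ} {s s' : MF n} (hO : IsOpen O)
    (hx : x ∈ O) (sm : ∀ i j, ContDiffOn ℝ ∞ (fun x => s x i j) O)
    (sm' : ∀ i j, ContDiffOn ℝ ∞ (fun x => s' x i j) O)
    (h : ∀ m ≤ 3, ∀ i j, ‖iteratedFDeriv ℝ m (fun y => s y i j) x‖ ≤ B ∧
      ‖iteratedFDeriv ℝ m (fun y => s' y i j) x‖ ≤ B ∧
      ‖iteratedFDeriv ℝ m (fun y => s y i j - s' y i j) x‖ ≤ ε) : S3 O x B ε s s' := by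
  have key : ∀ l : List (Fin n), l.length ≤ 3 → ∀ i j,
      |DG (l.map fun k => (Pi.single k 1 : V n)) (fun y => s y i j) x| ≤ B ∧
      |DG (l.map fun k => (Pi.single k 1 : V n)) (fun y => s' y i j) x| ≤ B ∧
      |DG (l.map fun k => (Pi.single k 1 : V n)) (fun y => s y i j) x -
        DG (l.map fun k => (Pi.single k 1 : V n)) (fun y => s' y i j) x| ≤ ε := by
    intro l hl i j
    have hv : ∀ v ∈ l.map fun k => (Pi.single k 1 : V n), ‖v‖ ≤ 1 := by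
      intro v hv
      obtain ⟨k, _, rfl⟩ := List.mem_map.1 hv
      rw [Pi.norm_single, norm_one]
    have a1 := DG_le hO (sm i j) hv hx
    have a2 := DG_le hO (sm' i j) hv hx
    have a3 := DG_le hO ((sm i j).sub (sm' i j)) hv hx
    rw [DG_sub hO (sm i j) (sm' i j) _ x hx] at a3
    rw [List.length_map] at a1 a2 a3
    obtain ⟨b1, b2, b3⟩ := h l.length hl i j
    exact ⟨a1.trans b1, a2.trans b2, a3.trans b3⟩
  exact ⟨sm, sm', key [] (by simp), fun k => key [k] (by simp), fun l k => key [l, k] (by simp),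
    fun m l k => key [m, l, k] (by simp)⟩

/-- Near the identity. -/
theorem N3.s3 {O : Set (V n)} {x : V n} (hx : x ∈ O) {B ε : ℝ} {s : MF n} (h : N3 O ε ε ε ε s)
    (h1 : ε ≤ 1) (hB : 2 ≤ B) : S3 O x B ε s (fun _ => 1) where
  sm := h.sm
  sm' _ _ := contDiffOn_const
  b0 i j := by
    have a1 := h.b0 x hx i j
    have a2 := one_le1 i j
    have e : s x i j = (s x i j - (1 : Matrix (Fin n) (Fin n) ℝ) i j) +
      (1 : Matrix (Fin n) (Fin n) ℝ) i j := by ring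
    refine ⟨?_, by linarith, a1⟩
    rw [e]
    exact (abs_add_le _ _).trans (by linarith)
  b1 k i j := by
    have a1 := h.b1 x hx k i j
    have e : pd k (fun _ : V n => (1 : Matrix (Fin n) (Fin n) ℝ) i j) = fun _ => 0 := by
      funext x; simp [pd]
    rw [e, sub_zero, abs_zero]
    exact ⟨by linarith, by linarith, a1⟩
  b2 l k i j := by
    have a1 := h.b2 x hx l k i j
    have e : ∀ (k : Fin n) (c : ℝ), pd k (fun _ : V n => c) = fun _ => 0 := by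
      intro k c; funext x; simp [pd]
    rw [e, e, sub_zero, abs_zero]
    exact ⟨by linarith, by linarith, a1⟩
  b3 m l k i j := by
    have a1 := h.b3 x hx m l k i j
    have e : ∀ (k : Fin n) (c : ℝ), pd k (fun _ : V n => c) = fun _ => 0 := by
      intro k c; funext x; simp [pd]
    rw [e, e, e, sub_zero, abs_zero]
    exact ⟨by linarith, by linarith, a1⟩

section jet

variable {P δ : Type*} {V' : Env P (VV n) δ} {k : ℕ} {f g : P → VV n → ℝ}

/-- Close jets from lists of directions. -/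
theorem uc_list (hf : ∀ p, Sm (V'.U p) (f p)) (hg : ∀ p, Sm (V'.U p) (g p)) {C : ℝ} (hC : 0 ≤ C)
    (h : ∀ p (L : List δ), L.length ≤ k → |DD (L.map V'.e) (f p) (V'.z p)| ≤ C ∧
      |DD (L.map V'.e) (g p) (V'.z p)| ≤ C ∧
      |DD (L.map V'.e) (f p) (V'.z p) - DD (L.map V'.e) (g p) (V'.z p)| ≤ C * V'.ε p) :
    UC V' k f g := by
  have base : ∀ {f g : P → VV n → ℝ} {k : ℕ}, (∀ p, Sm (V'.U p) (f p)) →
      (∀ p, Sm (V'.U p) (g p)) →
      (∀ p (L : List δ), L.length ≤ k → |DD (L.map V'.e) (f p) (V'.z p)| ≤ C ∧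
        |DD (L.map V'.e) (g p) (V'.z p)| ≤ C ∧
        |DD (L.map V'.e) (f p) (V'.z p) - DD (L.map V'.e) (g p) (V'.z p)| ≤ C * V'.ε p) →
      UC V' 0 f g := by
    intro f g k hf hg h
    refine UC.z0 hf hg ⟨C, hC, fun p => ?_⟩
    have := h p [] (by simp)
    simpa [DD] using this
  induction k generalizing f g with
  | zero => exact base hf hg h
  | succ k ih =>
    refine UC.sc (base hf hg h) fun d => ih (fun p => (hf p).fd (V'.op p) _)
      (fun p => (hg p).fd (V'.op p) _) fun p L hL => ?_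
    have := h p (L ++ [d]) (by simpa using hL)
    rw [List.map_append, DD_append, DD_append] at this
    exact this

theorem DD_sub {U : Set (VV n)} (hU : IsOpen U) {f g : VV n → ℝ} (hf : Sm U f) (hg : Sm U g)
    (l : List (VV n)) : ∀ z ∈ U, DD l (fun z => f z - g z) z = DD l f z - DD l g z := by
  induction l with
  | nil => exact fun _ _ => rfl
  | cons v l ih =>
    intro z hz
    have h1 : DD l (fun z => f z - g z) =ᶠ[𝓝 z] fun z => DD l f z - DD l g z := by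
      filter_upwards [hU.mem_nhds hz] with w hw using ih w hw
    change fderiv ℝ (DD l fun z => f z - g z) z v = _
    rw [h1.fderiv_eq, fderiv_fun_sub ((DD_sm hU hf l).diff hU hz) ((DD_sm hU hg l).diff hU hz)]
    rfl

/-- The derivatives of order `1, …, k` of two functions at `z`. -/
def Jt (k : ℕ) (B ε : ℝ) (f g : VV n → ℝ) (z : VV n) : Prop :=
  ∀ j, 1 ≤ j → j ≤ k → Nk j f z ≤ B ∧ Nk j g z ≤ B ∧ Nk j (fun z => f z - g z) z ≤ ε

/-- Close derivatives from the norms of the iterated derivatives. -/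
theorem ud_jt (he : ∀ d, ‖V'.e d‖ ≤ 1) (hf : ∀ p, Sm (V'.U p) (f p))
    (hg : ∀ p, Sm (V'.U p) (g p)) {B : ℝ} (h : ∀ p, Jt (k + 1) B (V'.ε p) (f p) (g p) (V'.z p)) :
    UD V' k f g := by
  refine ⟨hf, hg, fun d => ?_⟩
  refine uc_list (C := max B 1) (fun p => (hf p).fd (V'.op p) _)
      (fun p => (hg p).fd (V'.op p) _) (le_trans zero_le_one (le_max_right _ _)) fun p L hL => ?_
  have hU := V'.op p
  have hz := V'.mem p
  have e1 : ∀ f : P → VV n → ℝ, DD (L.map V'.e) (dv (V'.e d) f p) = DD ((L ++ [d]).map V'.e) (f p) :=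
    fun f => by rw [List.map_append, DD_append]; rfl
  rw [e1, e1, ← DD_sub hU (hf p) (hg p) _ _ hz]
  have hl : ∀ v ∈ (L ++ [d]).map V'.e, ‖v‖ ≤ 1 := by
    intro v hv
    obtain ⟨d', _, rfl⟩ := List.mem_map.1 hv
    exact he d'
  have hlen : ((L ++ [d]).map V'.e).length = L.length + 1 := by simp
  have a1 := DD_le hU (hf p) hl hz
  have a2 := DD_le hU (hg p) hl hz
  have a3 := DD_le hU ((hf p).sub (hg p)) hl hz
  rw [hlen] at a1 a2 a3
  obtain ⟨b1, b2, b3⟩ := h p (L.length + 1) (by omega) (by omega)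
  have m1 := le_max_left B 1
  have m2 := le_max_right B 1
  refine ⟨a1.trans (b1.trans m1), a2.trans (b2.trans m1), a3.trans (b3.trans ?_)⟩
  nlinarith [V'.ep p]

/-- Close families of functions on `V n`. -/
def PB (V' : Env P (VV n) δ) (x : P → V n) : ℕ → (P → V n → ℝ) → (P → V n → ℝ) → Prop
  | 0, f, g => ∃ C : ℝ, 0 ≤ C ∧ ∀ p, |f p (x p)| ≤ C ∧ |g p (x p)| ≤ C ∧
      |f p (x p) - g p (x p)| ≤ C * V'.ε p
  | k + 1, f, g => (∃ C : ℝ, 0 ≤ C ∧ ∀ p, |f p (x p)| ≤ C ∧ |g p (x p)| ≤ C ∧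
      |f p (x p) - g p (x p)| ≤ C * V'.ε p) ∧
      ∀ i, PB V' x k (fun p => pd i (f p)) (fun p => pd i (g p))

theorem uc_pb {q : VV n →L[ℝ] V n} {O : P → Set (V n)} (hO : ∀ p, IsOpen (O p))
    (hU : ∀ p, ∀ z ∈ V'.U p, q z ∈ O p)
    (he : ∀ d, q (V'.e d) = 0 ∨ ∃ i, q (V'.e d) = Pi.single i 1) {f g : P → V n → ℝ}
    (hf : ∀ p, ContDiffOn ℝ ∞ (f p) (O p)) (hg : ∀ p, ContDiffOn ℝ ∞ (g p) (O p))
    (h : PB V' (fun p => q (V'.z p)) k f g) :
    UC V' k (fun p z => f p (q z)) (fun p z => g p (q z)) := by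
  have base : ∀ {f g : P → V n → ℝ}, (∀ p, ContDiffOn ℝ ∞ (f p) (O p)) →
      (∀ p, ContDiffOn ℝ ∞ (g p) (O p)) → (∃ C : ℝ, 0 ≤ C ∧ ∀ p, |f p (q (V'.z p))| ≤ C ∧
      |g p (q (V'.z p))| ≤ C ∧ |f p (q (V'.z p)) - g p (q (V'.z p))| ≤ C * V'.ε p) →
      UC V' 0 (fun p z => f p (q z)) (fun p z => g p (q z)) := by
    intro f g hf hg h
    obtain ⟨C, hC, h⟩ := h
    refine UC.z0 (fun p => (hf p).comp q.contDiff.contDiffOn (hU p))
      (fun p => (hg p).comp q.contDiff.contDiffOn (hU p)) ⟨C, hC, fun p => ?_⟩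
    simpa using h p
  induction k generalizing f g with
  | zero => exact base hf hg h
  | succ k ih =>
    rw [PB] at h
    refine UC.sc (base hf hg h.1) fun d => ?_
    have key : ∀ {f : P → V n → ℝ}, (∀ p, ContDiffOn ℝ ∞ (f p) (O p)) → ∀ p, ∀ w ∈ V'.U p,
        dv (V'.e d) (fun p z => f p (q z)) p w = fderiv ℝ (f p) (q w) (q (V'.e d)) := by
      intro f hf p w hw
      exact (hv_p (df_of (hO p) (hf p) (hU p w hw)) (V'.e d)).e
    rcases he d with h0 | ⟨i, hi⟩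
    · refine (UC.const 0 k).congr ?_ ?_
      · intro p w hw
        rw [key hf p w hw, h0, map_zero]
      · intro p w hw
        rw [key hg p w hw, h0, map_zero]
    · refine (ih (f := fun p => pd i (f p)) (g := fun p => pd i (g p))
        (fun p => sm_pd (hO p) (hf p) i) (fun p => sm_pd (hO p) (hg p) i) (h.2 i)).congr ?_ ?_
      · intro p w hw
        rw [key hf p w hw, hi]; rfl
      · intro p w hw
        rw [key hg p w hw, hi]; rfl

end jet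

/-- The data. -/
structure PD (n : ℕ) (B : ℝ) where
  O₁ : Set (V n)
  O₂ : Set (V n)
  U : Set (VV n)
  s₁ : MF n
  s₁' : MF n
  s₂ : MF n
  s₂' : MF n
  v₁ : VV n → ℝ
  v₁' : VV n → ℝ
  v₂ : VV n → ℝ
  v₂' : VV n → ℝ
  W : VV n → ℝ
  W' : VV n → ℝ
  a : VV n → ℝ
  b : VV n → ℝ
  z : VV n
  ε : ℝ
  o₁ : IsOpen O₁
  o₂ : IsOpen O₂
  oU : IsOpen U
  h₁ : S3 O₁ z.1 B ε s₁ s₁'
  h₂ : S3 O₂ z.2 B ε s₂ s₂'
  w₁ : Sm U v₁
  w₁' : Sm U v₁'
  w₂ : Sm U v₂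
  w₂' : Sm U v₂'
  sW : Sm U W
  sW' : Sm U W'
  e0 : 0 ≤ ε
  e1 : ε ≤ 1
  zU : z ∈ U
  z₁ : z.1 ∈ O₁
  z₂ : z.2 ∈ O₂
  jv₁ : Jt 1 B ε v₁ v₁' z
  jv₂ : Jt 1 B ε v₂ v₂' z
  jW : Jt 4 B ε W W' z

/-- The directions. -/
def dr (n : ℕ) : Fin n ⊕ Fin n → VV n
  | .inl i => (Pi.single i 1, 0)
  | .inr i => (0, Pi.single i 1)

theorem dr_le (d : Fin n ⊕ Fin n) : ‖dr n d‖ ≤ 1 := by
  rcases d with i | i
  · simp only [dr, Prod.norm_def, norm_zero, Pi.norm_single, norm_one]; simp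
  · simp only [dr, Prod.norm_def, norm_zero, Pi.norm_single, norm_one]; simp

/-- The size of the unknowns, squared. -/
def PD.q {B : ℝ} (p : PD n B) : ℝ :=
  nX (sx p.s₁) p.W p.a p.z + nX (sy p.s₂) p.W p.b p.z + p.a p.z ^ 2 + p.b p.z ^ 2

/-- The environment. -/
def EV (n : ℕ) (B : ℝ) : Env (PD n B) (VV n) (Fin n ⊕ Fin n) where
  U p := {z | z ∈ p.U ∧ z.1 ∈ p.O₁ ∧ z.2 ∈ p.O₂}
  z p := p.z
  ε p := p.ε
  m p := √p.q
  e := dr n
  op p := p.oU.inter ((p.o₁.preimage continuous_fst).inter (p.o₂.preimage continuous_snd))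
  mem p := ⟨p.zU, p.z₁, p.z₂⟩
  ep p := p.e0
  mp p := Real.sqrt_nonneg _

section inst

variable {B : ℝ}

theorem pb_s {x : PD n B → V n} {O : PD n B → Set (V n)} {s s' : PD n B → MF n}
    (h : ∀ p, S3 (O p) (x p) B p.ε (s p) (s' p)) (i j : Fin n) :
    PB (EV n B) x 3 (fun p x => s p x i j) (fun p x => s' p x i j) := by
  have hC : 0 ≤ max B 1 := le_trans zero_le_one (le_max_right _ _)
  have m1 := le_max_left B 1
  have m2 := le_max_right B 1
  have key : ∀ (p : PD n B) (u v : ℝ), (|u| ≤ B ∧ |v| ≤ B ∧ |u - v| ≤ p.ε) →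
      |u| ≤ max B 1 ∧ |v| ≤ max B 1 ∧ |u - v| ≤ max B 1 * (EV n B).ε p := by
    intro p u v h
    refine ⟨h.1.trans m1, h.2.1.trans m1, h.2.2.trans ?_⟩
    change p.ε ≤ max B 1 * p.ε
    nlinarith [p.e0]
  refine ⟨⟨_, hC, fun p => key p _ _ ((h p).b0 i j)⟩, fun k => ?_⟩
  refine ⟨⟨_, hC, fun p => key p _ _ ((h p).b1 k i j)⟩, fun l => ?_⟩
  refine ⟨⟨_, hC, fun p => key p _ _ ((h p).b2 l k i j)⟩, fun m => ?_⟩
  exact ⟨_, hC, fun p => key p _ _ ((h p).b3 m l k i j)⟩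

theorem sfx :
    SF (EV n B) Sum.inl 2 (fun p => sx p.s₁) (fun p => sx p.s₁') where
  e _ _ := rfl
  e' _ _ := rfl
  ρ := UC.const 1 3
  s i j := uc_pb (V' := EV n B) (q := ContinuousLinearMap.fst ℝ (V n) (V n)) (O := fun p => p.O₁)
    (fun p => p.o₁) (fun p z hz => hz.2.1)
    (fun d => by
      rcases d with i | i
      · exact Or.inr ⟨i, rfl⟩
      · exact Or.inl rfl)
    (fun p => p.h₁.sm i j) (fun p => p.h₁.sm' i j) (pb_s (fun p => p.h₁) i j)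
  kk i := by
    have e : ∀ s : MF n, (sx s).k i = fun _ => 0 := by
      intro s; funext z; simp [sx, slx, pd]
    refine (UC.const 0 2).congr ?_ ?_
    · intro p w _; exact congrFun (e _) w
    · intro p w _; exact congrFun (e _) w

theorem sfy :
    SF (EV n B) Sum.inr 2 (fun p => sy p.s₂) (fun p => sy p.s₂') where
  e _ _ := rfl
  e' _ _ := rfl
  ρ := UC.const 1 3
  s i j := uc_pb (V' := EV n B) (q := ContinuousLinearMap.snd ℝ (V n) (V n)) (O := fun p => p.O₂)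
    (fun p => p.o₂) (fun p z hz => hz.2.2)
    (fun d => by
      rcases d with i | i
      · exact Or.inl rfl
      · exact Or.inr ⟨i, rfl⟩)
    (fun p => p.h₂.sm i j) (fun p => p.h₂.sm' i j) (pb_s (fun p => p.h₂) i j)
  kk i := by
    have e : ∀ s : MF n, (sy s).k i = fun _ => 0 := by
      intro s; funext z; simp [sy, sly, pd]
    refine (UC.const 0 2).congr ?_ ?_
    · intro p w _; exact congrFun (e _) w
    · intro p w _; exact congrFun (e _) w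

theorem jt_d {p : PD n B} {k : ℕ} (hk : 1 ≤ k) {f g : VV n → ℝ} (hf : Sm p.U f) (hg : Sm p.U g)
    (h : Jt k B p.ε f g p.z) (d : Fin n ⊕ Fin n) :
    |fderiv ℝ f p.z (dr n d) - fderiv ℝ g p.z (dr n d)| ≤ p.ε := by
  have h1 := (h 1 le_rfl hk).2.2
  have h2 := DD_le (l := [dr n d]) p.oU (hf.sub hg) (by simpa using dr_le d) p.zU
  have h3 := DD_sub p.oU hf hg [dr n d] _ p.zU
  have h4 : DD [dr n d] f p.z - DD [dr n d] g p.z =
    fderiv ℝ f p.z (dr n d) - fderiv ℝ g p.z (dr n d) := rfl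
  rw [← h4, ← h3]
  exact h2.trans h1

/-- The unknowns are of degree one, if the derivations do not depend on the tensor. -/
theorem un_gen {σ σ' : PD n B → Sl (VV n) (Fin n)} {c : Fin n → Fin n ⊕ Fin n}
    {a : PD n B → VV n → ℝ}
    (hD : ∀ p i f, (σ p).D i f p.z = fderiv ℝ f p.z (dr n (c i)))
    (hD' : ∀ p i f, (σ' p).D i f p.z = fderiv ℝ f p.z (dr n (c i)))
    (ha : ∀ p, a p p.z ^ 2 ≤ p.q) (hx : ∀ p, nX (σ p) p.W (a p) p.z ≤ p.q) :
    Un (EV n B) σ σ' (fun p => p.W) (fun p => p.W') a := by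
  have e : ∀ p : PD n B, |a p p.z| ≤ √p.q := fun p => by
    refine Real.le_sqrt_of_sq_le ?_
    rw [sq_abs]; exact ha p
  have e2 : ∀ (p : PD n B) (i : Fin n), |Ch.XX (σ p) p.W (a p) p.z i| ≤ √p.q := fun p i => by
    refine Real.le_sqrt_of_sq_le ?_
    rw [sq_abs]
    refine le_trans ?_ (hx p)
    exact Finset.single_le_sum (f := fun i => Ch.XX (σ p) p.W (a p) p.z i ^ 2)
      (fun i _ => sq_nonneg _) (Finset.mem_univ i)
  refine ⟨⟨1, zero_le_one, fun p => ?_⟩, fun i => ⟨2, zero_le_two, fun p => ?_⟩⟩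
  · have := e p
    have h0 := p.e0
    simp only [EV, pow_one, one_mul, sub_self, abs_zero]
    exact ⟨this, this, by positivity⟩
  · have a1 := e p
    have a2 := e2 p i
    have h0 := p.e0
    have h1 := p.e1
    have hq := Real.sqrt_nonneg p.q
    have e3 : Ch.XX (σ p) p.W (a p) p.z i - Ch.XX (σ' p) p.W' (a p) p.z i =
        a p p.z * (fderiv ℝ p.W p.z (dr n (c i)) - fderiv ℝ p.W' p.z (dr n (c i))) := by
      unfold Ch.XX
      rw [hD, hD, hD', hD']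
      ring
    have a3 := jt_d (by norm_num) p.sW p.sW' p.jW (c i)
    have a4 : |Ch.XX (σ p) p.W (a p) p.z i - Ch.XX (σ' p) p.W' (a p) p.z i| ≤ p.ε * √p.q := by
      rw [e3, abs_mul, mul_comm]
      exact mul_le_mul a3 a1 (abs_nonneg _) h0
    have a5 : Ch.XX (σ' p) p.W' (a p) p.z i = Ch.XX (σ p) p.W (a p) p.z i -
      (Ch.XX (σ p) p.W (a p) p.z i - Ch.XX (σ' p) p.W' (a p) p.z i) := by ring
    have a6 : |Ch.XX (σ' p) p.W' (a p) p.z i| ≤ 2 * √p.q := by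
      rw [a5]
      refine (abs_sub _ _).trans ?_
      nlinarith
    simp only [EV, pow_one]
    refine ⟨by linarith, a6, a4.trans ?_⟩
    nlinarith [mul_nonneg h0 hq]

theorem PD.qn (p : PD n B) : nX (sx p.s₁) p.W p.a p.z ≤ p.q ∧ nX (sy p.s₂) p.W p.b p.z ≤ p.q ∧
    p.a p.z ^ 2 ≤ p.q ∧ p.b p.z ^ 2 ≤ p.q ∧ 0 ≤ p.q := by
  have h1 := Q8.nX_nonneg (sx p.s₁) p.W p.a p.z
  have h2 := Q8.nX_nonneg (sy p.s₂) p.W p.b p.z
  have h3 := sq_nonneg (p.a p.z)
  have h4 := sq_nonneg (p.b p.z)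
  unfold PD.q
  refine ⟨?_, ?_, ?_, ?_, ?_⟩ <;> linarith

/-- The estimate for all data. -/
theorem sta_pd (n : ℕ) (B : ℝ) : ∃ C : ℝ, 0 ≤ C ∧ ∀ p : PD n B,
    |sta (sx p.s₁) (sy p.s₂) p.v₁ p.v₂ p.W p.a p.b p.z -
      sta (sx p.s₁') (sy p.s₂') p.v₁' p.v₂' p.W' p.a p.b p.z| ≤ C * (p.ε * p.q) := by
  have hU : ∀ p : PD n B, (EV n B).U p ⊆ p.U := fun p z hz => hz.1
  have jW : UD (EV n B) 3 (fun p => p.W) (fun p => p.W') :=
    ud_jt dr_le (fun p => p.sW.mono (hU p)) (fun p => p.sW'.mono (hU p)) fun p => p.jW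
  have j₁ : UD (EV n B) 0 (fun p => p.v₁) (fun p => p.v₁') :=
    ud_jt dr_le (fun p => p.w₁.mono (hU p)) (fun p => p.w₁'.mono (hU p)) fun p => p.jv₁
  have j₂ : UD (EV n B) 0 (fun p => p.v₂) (fun p => p.v₂') :=
    ud_jt dr_le (fun p => p.w₂.mono (hU p)) (fun p => p.w₂'.mono (hU p)) fun p => p.jv₂
  have ua : Un (EV n B) (fun p => sx p.s₁) (fun p => sx p.s₁') (fun p => p.W) (fun p => p.W')
      (fun p => p.a) := un_gen (c := Sum.inl) (fun p i f => Dx1 i f p.z)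
    (fun p i f => Dx1 i f p.z) (fun p => p.qn.2.2.1) fun p => p.qn.1
  have ub : Un (EV n B) (fun p => sy p.s₂) (fun p => sy p.s₂') (fun p => p.W) (fun p => p.W')
      (fun p => p.b) := un_gen (c := Sum.inr) (fun p i f => Dy1 i f p.z)
    (fun p i f => Dy1 i f p.z) (fun p => p.qn.2.2.2.1) fun p => p.qn.2.1
  obtain ⟨C, hC, h⟩ := cl_sta sfx sfy jW j₁ j₂ ua ub
  refine ⟨C, hC, fun p => ?_⟩
  have h1 := (h p).2.2
  have h2 : (EV n B).m p ^ 2 = p.q := Real.sq_sqrt p.qn.2.2.2.2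
  rw [h2] at h1
  exact h1

end inst

/-- **(STA)** The star density is Lipschitz in the tensors (`C³`), the potentials (`C¹`) and the
weight (derivatives of order `1, …, 4`). -/
theorem sta_pert (n : ℕ) (B : ℝ) : ∃ C : ℝ, 0 ≤ C ∧
    ∀ (O₁ O₂ : Set (V n)) (U : Set (VV n)) (s₁ s₁' s₂ s₂' : MF n)
      (v₁ v₁' v₂ v₂' W W' : VV n → ℝ) (ε : ℝ), IsOpen O₁ → IsOpen O₂ → IsOpen U →
      Sm U v₁ → Sm U v₁' → Sm U v₂ → Sm U v₂' → Sm U W → Sm U W' → 0 ≤ ε → ε ≤ 1 →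
      ∀ z ∈ U, z.1 ∈ O₁ → z.2 ∈ O₂ → S3 O₁ z.1 B ε s₁ s₁' → S3 O₂ z.2 B ε s₂ s₂' →
      Jt 1 B ε v₁ v₁' z → Jt 1 B ε v₂ v₂' z → Jt 4 B ε W W' z → ∀ a b : VV n → ℝ,
      |sta (sx s₁) (sy s₂) v₁ v₂ W a b z - sta (sx s₁') (sy s₂') v₁' v₂' W' a b z| ≤
        C * (ε * (nX (sx s₁) W a z + nX (sy s₂) W b z + a z ^ 2 + b z ^ 2)) := by
  obtain ⟨C, hC, h⟩ := sta_pd n B
  refine ⟨C, hC, ?_⟩
  intro O₁ O₂ U s₁ s₁' s₂ s₂' v₁ v₁' v₂ v₂' W W' ε o₁ o₂ oU w₁ w₁' w₂ w₂' sW sW' e0 e1 z zU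
    z₁ z₂ h₁ h₂ jv₁ jv₂ jW a b
  exact h ⟨O₁, O₂, U, s₁, s₁', s₂, s₂', v₁, v₁', v₂, v₂', W, W', a, b, z, ε, o₁, o₂, oU, h₁, h₂,
    w₁, w₁', w₂, w₂', sW, sW', e0, e1, zU, z₁, z₂, jv₁, jv₂, jW⟩

/-- **(STA)**, against the flat slots. -/
theorem sta_flat (n : ℕ) (B : ℝ) : ∃ C : ℝ, 0 ≤ C ∧
    ∀ (O₁ O₂ : Set (V n)) (U : Set (VV n)) (s₁ s₂ : MF n) (v₁ v₂ W W' : VV n → ℝ) (ε : ℝ),
      IsOpen O₁ → IsOpen O₂ → IsOpen U → N3 O₁ ε ε ε ε s₁ → N3 O₂ ε ε ε ε s₂ → Sm U v₁ →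
      Sm U v₂ → Sm U W → Sm U W' → 0 ≤ ε → ε ≤ 1 → ∀ z ∈ U, z.1 ∈ O₁ → z.2 ∈ O₂ →
      Nk 1 v₁ z ≤ ε → Nk 1 v₂ z ≤ ε → Jt 4 B ε W W' z → ∀ a b : VV n → ℝ,
      |sta (sx s₁) (sy s₂) v₁ v₂ W a b z -
          sta (Ch.fx n) (Ch.fy n) (fun _ => 0) (fun _ => 0) W' a b z| ≤
        C * (ε * (nX (sx s₁) W a z + nX (sy s₂) W b z + a z ^ 2 + b z ^ 2)) := by
  obtain ⟨C, hC, h⟩ := sta_pert n (max B 2)
  refine ⟨C, hC, ?_⟩
  intro O₁ O₂ U s₁ s₂ v₁ v₂ W W' ε o₁ o₂ oU h₁ h₂ w₁ w₂ sW sW' e0 e1 z zU z₁ z₂ jv₁ jv₂ jW a b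
  have m1 := le_max_left B 2
  have m2 := le_max_right B 2
  have k0 : ∀ j, 1 ≤ j → Nk j (fun _ : VV n => (0 : ℝ)) z = 0 := by
    intro j hj
    unfold Nk
    rw [iteratedFDeriv_const_of_ne (by omega)]
    simp
  have kv : ∀ v : VV n → ℝ, Nk 1 v z ≤ ε → Jt 1 (max B 2) ε v (fun _ => 0) z := by
    intro v hv j h1 h2
    have hj : j = 1 := by omega
    subst hj
    refine ⟨by linarith, by rw [k0 1 le_rfl]; linarith, ?_⟩
    simpa only [sub_zero] using hv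
  exact h O₁ O₂ U s₁ (fun _ => 1) s₂ (fun _ => 1) v₁ (fun _ => 0) v₂ (fun _ => 0) W W' ε o₁ o₂ oU
    w₁ contDiffOn_const w₂ contDiffOn_const sW sW' e0 e1 z zU z₁ z₂ (h₁.s3 z₁ e1 m2)
    (h₂.s3 z₂ e1 m2) (kv v₁ jv₁) (kv v₂ jv₂)
    (fun j h1 h2 => ⟨(jW j h1 h2).1.trans m1, (jW j h1 h2).2.1.trans m1, (jW j h1 h2).2.2⟩) a b

end Vale.Agent.P088.R2.H973.W
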