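import Vale.Agent.P088.R2.H973.W.L34g
import Vale.Agent.P088.R2.H464.EP.CmpS

/-!
# P088: `grad Λ W`, `Λ Λ W` against the flat expressions (`Λ` in divergence form)

The rows `RowL3`, `RowL4` for tensors `s` with `|s - 1| ≤ ε`, `|∂s| ≤ δ₁`, `|∂²s| ≤ δ₂`,
`|∂³s| ≤ δ₃` (`N3`), without the condition `∑ ∂_i s_ij = 0`.
-/

open Set Filter
open scoped ContDiff Topology Matrix

noncomputable section

namespace Vale.Agent.P088.R2.H973.W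

open Vale.Agent.P088.LR Vale.Agent.P088.HY Vale.Agent.P088.R2.H961.GW
open Vale.Agent.P088.R2.H464.Cu

variable {n : ℕ}

/-- The directions of the first variable. -/
def ex (i : Fin n) : VV n := (Pi.single i 1, 0)

/-- The directions of the second variable. -/
def ey (i : Fin n) : VV n := (0, Pi.single i 1)

theorem ex_le (i : Fin n) : ‖(ex i : VV n)‖ ≤ 1 := by
  simp only [ex, Prod.norm_def, norm_zero, Pi.norm_single, norm_one]; simp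

theorem ey_le (i : Fin n) : ‖(ey i : VV n)‖ ≤ 1 := by
  simp only [ey, Prod.norm_def, norm_zero, Pi.norm_single, norm_one]; simp

theorem dir_xx (i : Fin n) : Dir (ContinuousLinearMap.fst ℝ (V n) (V n)) (ex i) :=
  ⟨ex_le i, Or.inr ⟨i, rfl⟩⟩

theorem dir_xy (i : Fin n) : Dir (ContinuousLinearMap.fst ℝ (V n) (V n)) (ey i) :=
  ⟨ey_le i, Or.inl rfl⟩

theorem dir_yy (i : Fin n) : Dir (ContinuousLinearMap.snd ℝ (V n) (V n)) (ey i) :=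
  ⟨ey_le i, Or.inr ⟨i, rfl⟩⟩

theorem dir_yx (i : Fin n) : Dir (ContinuousLinearMap.snd ℝ (V n) (V n)) (ex i) :=
  ⟨ex_le i, Or.inl rfl⟩

theorem Ld_congr {q : VV n →L[ℝ] V n} {e : Fin n → VV n} {s : MF n} {D : Set (VV n)}
    {f g : VV n → ℝ} (hD : IsOpen D) (h : ∀ z ∈ D, f z = g z) : ∀ z ∈ D,
    Ld q e s f z = Ld q e s g z := by
  intro z hz
  unfold Ld Tm
  refine Finset.sum_congr rfl fun i _ => Finset.sum_congr rfl fun j _ => ?_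
  rw [DD_congr hD h _ z hz, DD_congr hD h _ z hz]

/-- `Λ` in the slot of the first variable. -/
theorem sx_Ld {O : Set (V n)} {s : MF n} (hO : IsOpen O)
    (hs : ∀ i j, ContDiffOn ℝ ∞ (fun x => s x i j) O) (f : VV n → ℝ) {z : VV n} (hz : z.1 ∈ O) :
    (sx s).Λ f z = Ld (ContinuousLinearMap.fst ℝ (V n) (V n)) ex s f z := by
  unfold Sl.Λ Ld Tm
  refine Finset.sum_congr rfl fun i _ => Finset.sum_congr rfl fun j _ => ?_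
  have e1 : (sx s).D i ((sx s).D j f) z = DD [ex i, ex j] f z := by
    rw [Dx1, show (sx s).D j f = fun w => fderiv ℝ f w (Pi.single j 1, 0) from
      funext fun w => Dx1 j f w]
    rfl
  have e2 : (sx s).D j f z = DD [ex j] f z := by rw [Dx1]; rfl
  have e3 : (sx s).k i z = 0 := by simp [sx, slx, pd]
  have e4 : (sx s).D i ((sx s).s i j) z =
      pv (ContinuousLinearMap.fst ℝ (V n) (V n) (ex i)) (fun x => s x i j) z.1 := by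
    rw [Dx1]
    exact fd_fst (df_of hO (hs i j) hz) _ _
  rw [e1, e2, e3, e4, zero_mul, add_zero]
  rfl

/-- `Λ` in the slot of the second variable. -/
theorem sy_Ld {O : Set (V n)} {s : MF n} (hO : IsOpen O)
    (hs : ∀ i j, ContDiffOn ℝ ∞ (fun x => s x i j) O) (f : VV n → ℝ) {z : VV n} (hz : z.2 ∈ O) :
    (sy s).Λ f z = Ld (ContinuousLinearMap.snd ℝ (V n) (V n)) ey s f z := by
  unfold Sl.Λ Ld Tm
  refine Finset.sum_congr rfl fun i _ => Finset.sum_congr rfl fun j _ => ?_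
  have e1 : (sy s).D i ((sy s).D j f) z = DD [ey i, ey j] f z := by
    rw [Dy1, show (sy s).D j f = fun w => fderiv ℝ f w (0, Pi.single j 1) from
      funext fun w => Dy1 j f w]
    rfl
  have e2 : (sy s).D j f z = DD [ey j] f z := by rw [Dy1]; rfl
  have e3 : (sy s).k i z = 0 := by simp [sy, sly, pd]
  have e4 : (sy s).D i ((sy s).s i j) z =
      pv (ContinuousLinearMap.snd ℝ (V n) (V n) (ey i)) (fun x => s x i j) z.2 := by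
    rw [Dy1]
    exact fd_snd (df_of hO (hs i j) hz) _ _
  rw [e1, e2, e3, e4, zero_mul, add_zero]
  rfl

/-- The gradient of `Λ W` (new form of `RowL3`). -/
def RowL3d (n : ℕ) : Prop :=
  ∃ C : ℝ, 0 ≤ C ∧ ∀ (O : Set (V n)) (ε δ₁ δ₂ δ₃ : ℝ) (s : MF n), IsOpen O →
    N3 O ε δ₁ δ₂ δ₃ s → 0 ≤ ε → ε ≤ 1 → 0 ≤ δ₁ → 0 ≤ δ₂ → ∀ (U : Set (VV n)) (W : VV n → ℝ),
    IsOpen U → Sm U W → ∀ z ∈ U, ∀ k : Fin n,
    (z.1 ∈ O → |dx k ((sx s).Λ W) z - ∑ i, dx k (dx i (dx i W)) z| ≤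
        C * (ε * Nj 3 W z + δ₁ * Nj 2 W z + δ₂ * Nj 1 W z) ∧
      |dy k ((sx s).Λ W) z - ∑ i, dy k (dx i (dx i W)) z| ≤
        C * (ε * Nj 3 W z + δ₁ * Nj 2 W z)) ∧
    (z.2 ∈ O → |dy k ((sy s).Λ W) z - ∑ i, dy k (dy i (dy i W)) z| ≤
        C * (ε * Nj 3 W z + δ₁ * Nj 2 W z + δ₂ * Nj 1 W z) ∧
      |dx k ((sy s).Λ W) z - ∑ i, dx k (dy i (dy i W)) z| ≤
        C * (ε * Nj 3 W z + δ₁ * Nj 2 W z))

/-- `Λ Λ W` (new form of `RowL4`). -/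
def RowL4d (n : ℕ) : Prop :=
  ∃ C : ℝ, 0 ≤ C ∧ ∀ (O : Set (V n)) (ε δ₁ δ₂ δ₃ : ℝ) (s₁ s₂ : MF n), IsOpen O →
    N3 O ε δ₁ δ₂ δ₃ s₁ → N3 O ε δ₁ δ₂ δ₃ s₂ →
    0 ≤ ε → ε ≤ 1 → 0 ≤ δ₁ → 0 ≤ δ₂ → 0 ≤ δ₃ → ∀ (U : Set (VV n)) (W : VV n → ℝ),
    IsOpen U → Sm U W → ∀ z ∈ U,
    (z.1 ∈ O → |(sx s₁).Λ ((sx s₁).Λ W) z - ∑ i, ∑ j, dx i (dx i (dx j (dx j W))) z| ≤
      C * (ε * Nj 4 W z + δ₁ * Nj 3 W z + (δ₂ + δ₁ ^ 2) * Nj 2 W z +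
        (δ₃ + δ₁ * δ₂) * Nj 1 W z)) ∧
    (z.2 ∈ O → |(sy s₂).Λ ((sy s₂).Λ W) z - ∑ i, ∑ j, dy i (dy i (dy j (dy j W))) z| ≤
      C * (ε * Nj 4 W z + δ₁ * Nj 3 W z + (δ₂ + δ₁ ^ 2) * Nj 2 W z +
        (δ₃ + δ₁ * δ₂) * Nj 1 W z)) ∧
    (z.1 ∈ O → z.2 ∈ O →
      |(sx s₁).Λ ((sy s₂).Λ W) z - ∑ i, ∑ j, dx i (dx i (dy j (dy j W))) z| ≤
      C * (ε * Nj 4 W z + δ₁ * Nj 3 W z + δ₁ ^ 2 * Nj 2 W z))

section rows

variable {O : Set (V n)} {s s₁ s₂ : MF n} {U : Set (VV n)} {W : VV n → ℝ} {z : VV n}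
  {ε δ₁ δ₂ δ₃ : ℝ}

theorem fx_open (hO : IsOpen O) : IsOpen {z : VV n | z.1 ∈ O} := hO.preimage continuous_fst

theorem fy_open (hO : IsOpen O) : IsOpen {z : VV n | z.2 ∈ O} := hO.preimage continuous_snd

theorem rowL3d (n : ℕ) : RowL3d n := by
  refine ⟨2 * (n : ℝ) ^ 2, by positivity, ?_⟩
  intro O ε δ₁ δ₂ δ₃ s hO hs hε hε1 hδ₁ hδ₂ U W hU hW z hz k
  have n1 : 0 ≤ Nj 1 W z := norm_nonneg _
  have n2 : 0 ≤ Nj 2 W z := norm_nonneg _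
  have n3 : 0 ≤ Nj 3 W z := norm_nonneg _
  have hn : 0 ≤ (n : ℝ) ^ 2 := by positivity
  have q1 : 0 ≤ δ₂ * Nj 1 W z := mul_nonneg hδ₂ n1
  have q2 : 0 ≤ δ₁ * Nj 2 W z := mul_nonneg hδ₁ n2
  have q3 : 0 ≤ ε * Nj 3 W z := mul_nonneg hε n3
  have cx : ∀ (l : List (VV n)), z.1 ∈ O → DD l ((sx s).Λ W) z =
      DD l (Ld (ContinuousLinearMap.fst ℝ (V n) (V n)) ex s W) z := fun l h1 =>
    DD_congr (fx_open hO) (fun w hw => sx_Ld hO hs.sm W hw) l z h1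
  have cy : ∀ (l : List (VV n)), z.2 ∈ O → DD l ((sy s).Λ W) z =
      DD l (Ld (ContinuousLinearMap.snd ℝ (V n) (V n)) ey s W) z := fun l h1 =>
    DD_congr (fy_open hO) (fun w hw => sy_Ld hO hs.sm W hw) l z h1
  have w1 : (n : ℝ) ^ 2 * (ε * Nj 3 W z + 2 * (δ₁ * Nj 2 W z) + δ₂ * Nj 1 W z) ≤
      2 * (n : ℝ) ^ 2 * (ε * Nj 3 W z + δ₁ * Nj 2 W z + δ₂ * Nj 1 W z) := by
    have : 0 ≤ (n : ℝ) ^ 2 * (ε * Nj 3 W z + δ₂ * Nj 1 W z) := mul_nonneg hn (add_nonneg q3 q1)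
    linarith only [this]
  have w2 : (n : ℝ) ^ 2 * (ε * Nj 3 W z + δ₁ * Nj 2 W z) ≤
      2 * (n : ℝ) ^ 2 * (ε * Nj 3 W z + δ₁ * Nj 2 W z) := by
    have : 0 ≤ (n : ℝ) ^ 2 * (ε * Nj 3 W z + δ₁ * Nj 2 W z) := mul_nonneg hn (add_nonneg q3 q2)
    linarith only [this]
  refine ⟨fun h1 => ⟨?_, ?_⟩, fun h2 => ⟨?_, ?_⟩⟩
  · have h := L1_bd (q := ContinuousLinearMap.fst ℝ (V n) (V n)) (w := ex k) hO hU hW hs hδ₁ hδ₂
      ⟨hz, h1⟩ dir_xx (dir_xx k)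
    rw [← cx _ h1] at h
    exact h.trans w1
  · have h := L1_bd0 (q := ContinuousLinearMap.fst ℝ (V n) (V n)) (w := ey k) hO hU hW hs hδ₁
      ⟨hz, h1⟩ dir_xx (ey_le k) rfl
    rw [← cx _ h1] at h
    exact h.trans w2
  · have h := L1_bd (q := ContinuousLinearMap.snd ℝ (V n) (V n)) (w := ey k) hO hU hW hs hδ₁ hδ₂
      ⟨hz, h2⟩ dir_yy (dir_yy k)
    rw [← cy _ h2] at h
    exact h.trans w1
  · have h := L1_bd0 (q := ContinuousLinearMap.snd ℝ (V n) (V n)) (w := ex k) hO hU hW hs hδ₁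
      ⟨hz, h2⟩ dir_yy (ex_le k) rfl
    rw [← cy _ h2] at h
    exact h.trans w2

theorem rowL4d (n : ℕ) : RowL4d n := by
  refine ⟨10 * ((n : ℝ) ^ 4 + (n : ℝ) ^ 3), by positivity, ?_⟩
  intro O ε δ₁ δ₂ δ₃ s₁ s₂ hO hs₁ hs₂ hε hε1 hδ₁ hδ₂ hδ₃ U W hU hW z hz
  refine ⟨fun h1 => ?_, fun h2 => ?_, fun h1 h2 => ?_⟩
  · have e : (sx s₁).Λ ((sx s₁).Λ W) z = Ld (ContinuousLinearMap.fst ℝ (V n) (V n)) ex s₁
        (Ld (ContinuousLinearMap.fst ℝ (V n) (V n)) ex s₁ W) z := by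
      rw [sx_Ld hO hs₁.sm _ h1]
      exact Ld_congr (fx_open hO) (fun w hw => sx_Ld hO hs₁.sm W hw) z h1
    rw [e]
    exact L4_same hO hU hW hε hε1 hs₁ hδ₁ hδ₂ hδ₃ ⟨hz, h1⟩ dir_xx
  · have e : (sy s₂).Λ ((sy s₂).Λ W) z = Ld (ContinuousLinearMap.snd ℝ (V n) (V n)) ey s₂
        (Ld (ContinuousLinearMap.snd ℝ (V n) (V n)) ey s₂ W) z := by
      rw [sy_Ld hO hs₂.sm _ h2]
      exact Ld_congr (fy_open hO) (fun w hw => sy_Ld hO hs₂.sm W hw) z h2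
    rw [e]
    exact L4_same hO hU hW hε hε1 hs₂ hδ₁ hδ₂ hδ₃ ⟨hz, h2⟩ dir_yy
  · have e : (sx s₁).Λ ((sy s₂).Λ W) z = Ld (ContinuousLinearMap.fst ℝ (V n) (V n)) ex s₁
        (Ld (ContinuousLinearMap.snd ℝ (V n) (V n)) ey s₂ W) z := by
      rw [sx_Ld hO hs₁.sm _ h1]
      exact Ld_congr (fy_open hO) (fun w hw => sy_Ld hO hs₂.sm W hw) z h2
    rw [e]
    exact L4_mix hO hU hW hε hε1 hs₁ hs₂ hδ₁ h1 ⟨hz, h2⟩ dir_xx (fun _ => rfl) dir_yy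

end rows

end Vale.Agent.P088.R2.H973.W
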