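import Vale.Agent.P088.R2.H973.W.DD

/-!
# P088: `D Λ W`, `D² Λ W`, `Λ Λ W` against the flat expressions (divergence form)
-/

open Set Filter
open scoped ContDiff Topology Matrix

noncomputable section

namespace Vale.Agent.P088.R2.H973.W

open Vale.Agent.P088.LR Vale.Agent.P088.HY Vale.Agent.P088.R2.H961.GW
open Vale.Agent.P088.R2.H464.Cu

variable {n : ℕ} {p q : VV n →L[ℝ] V n} {e f : Fin n → VV n} {s s₁ s₂ : MF n} {O O₁ O₂ : Set (V n)}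
  {U : Set (VV n)} {W : VV n → ℝ} {z w w' : VV n} {ε δ₁ δ₂ δ₃ : ℝ}

/-- `Λ W` itself. -/
theorem L0_bd (hU : IsOpen U) (hW : Sm U W)
    (hs : N3 O ε δ₁ δ₂ δ₃ s) (hδ₁ : 0 ≤ δ₁) (hz : z ∈ Dm q O U) (he : ∀ i, Dir q (e i)) :
    |Ld q e s W z - ∑ i, DD [e i, e i] W z| ≤ (n : ℝ) ^ 2 * (ε * Nk 2 W z + δ₁ * Nk 1 W z) := by
  unfold Ld
  rw [← sum_one fun i j => DD [e i, e j] W z]
  simp only [← Finset.sum_sub_distrib]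
  refine sum_le2 fun i j => ?_
  have c1 : |(s (q z) i j - (1 : Matrix (Fin n) (Fin n) ℝ) i j) * DD [e i, e j] W z| ≤
      ε * Nk 2 W z := by
    rw [abs_mul]
    exact mul_le_mul (hs.b0 _ hz.2 i j) (DD_le hU hW (by simp [(he _).1]) hz.1) (abs_nonneg _)
      ((abs_nonneg _).trans (hs.b0 _ hz.2 i j))
  have c2 : |Tm q (pv (q (e i)) fun x => s x i j) [e j] W z| ≤ δ₁ * Nk 1 W z :=
    Tm_le hU hW (by simp [(he _).1]) hz.1 (hs.d1 hδ₁ (he i) hz.2 i j)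
  have e1 : Tm q (fun x => s x i j) [e i, e j] W z + Tm q (pv (q (e i)) fun x => s x i j) [e j] W z
      - (1 : Matrix (Fin n) (Fin n) ℝ) i j * DD [e i, e j] W z =
      (s (q z) i j - (1 : Matrix (Fin n) (Fin n) ℝ) i j) * DD [e i, e j] W z +
        Tm q (pv (q (e i)) fun x => s x i j) [e j] W z := by
    unfold Tm; ring
  rw [e1]
  exact (abs_add_le _ _).trans (add_le_add c1 c2)

/-- First derivatives of `Λ W`. -/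
theorem L1_bd (hO : IsOpen O) (hU : IsOpen U) (hW : Sm U W) (hs : N3 O ε δ₁ δ₂ δ₃ s)
    (hδ₁ : 0 ≤ δ₁) (hδ₂ : 0 ≤ δ₂) (hz : z ∈ Dm q O U) (he : ∀ i, Dir q (e i)) (hw : Dir q w) :
    |DD [w] (Ld q e s W) z - ∑ i, DD [w, e i, e i] W z| ≤
      (n : ℝ) ^ 2 * (ε * Nk 3 W z + 2 * (δ₁ * Nk 2 W z) + δ₂ * Nk 1 W z) := by
  rw [Ld_DD hO hs.sm hU hW e [w] hz, ← sum_one fun i j => DD [w, e i, e j] W z]
  simp only [← Finset.sum_sub_distrib]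
  refine sum_le2 fun i j => ?_
  rw [Tm_d hO hU (hs.sm i j) hW _ w hz, Tm_d hO hU (pv_sm hO (hs.sm i j) _) hW _ w hz]
  have c1 : |(s (q z) i j - (1 : Matrix (Fin n) (Fin n) ℝ) i j) * DD [w, e i, e j] W z| ≤
      ε * Nk 3 W z := by
    rw [abs_mul]
    exact mul_le_mul (hs.b0 _ hz.2 i j) (DD_le hU hW (by simp [(he _).1, hw.1]) hz.1)
      (abs_nonneg _) ((abs_nonneg _).trans (hs.b0 _ hz.2 i j))
  have c2 : |Tm q (pv (q w) fun x => s x i j) [e i, e j] W z| ≤ δ₁ * Nk 2 W z :=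
    Tm_le hU hW (by simp [(he _).1]) hz.1 (hs.d1 hδ₁ hw hz.2 i j)
  have c3 : |Tm q (pv (q (e i)) fun x => s x i j) [w, e j] W z| ≤ δ₁ * Nk 2 W z :=
    Tm_le hU hW (by simp [(he _).1, hw.1]) hz.1 (hs.d1 hδ₁ (he i) hz.2 i j)
  have c4 : |Tm q (pv (q w) (pv (q (e i)) fun x => s x i j)) [e j] W z| ≤ δ₂ * Nk 1 W z :=
    Tm_le hU hW (by simp [(he _).1]) hz.1 (hs.d2 hδ₂ (he i) hw hz.2 i j)
  have e1 : Tm q (fun x => s x i j) [w, e i, e j] W z =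
    s (q z) i j * DD [w, e i, e j] W z := rfl
  rw [abs_le] at c1 c2 c3 c4 ⊢
  constructor
  · linarith only [c1.1, c2.1, c3.1, c4.1, e1]
  · linarith only [c1.2, c2.2, c3.2, c4.2, e1]

/-- Second derivatives of `Λ W`. -/
theorem L2_bd (hO : IsOpen O) (hU : IsOpen U) (hW : Sm U W) (hs : N3 O ε δ₁ δ₂ δ₃ s)
    (hδ₁ : 0 ≤ δ₁) (hδ₂ : 0 ≤ δ₂) (hδ₃ : 0 ≤ δ₃) (hz : z ∈ Dm q O U) (he : ∀ i, Dir q (e i))
    (hw : Dir q w) (hw' : Dir q w') :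
    |DD [w', w] (Ld q e s W) z - ∑ i, DD [w', w, e i, e i] W z| ≤
      (n : ℝ) ^ 2 * (ε * Nk 4 W z + 3 * (δ₁ * Nk 3 W z) + 3 * (δ₂ * Nk 2 W z) +
        δ₃ * Nk 1 W z) := by
  rw [Ld_DD hO hs.sm hU hW e [w', w] hz, ← sum_one fun i j => DD [w', w, e i, e j] W z]
  simp only [← Finset.sum_sub_distrib]
  refine sum_le2 fun i j => ?_
  rw [Tm_d2 hO hU (hs.sm i j) hW _ w' w hz, Tm_d2 hO hU (pv_sm hO (hs.sm i j) _) hW _ w' w hz]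
  have c1 : |(s (q z) i j - (1 : Matrix (Fin n) (Fin n) ℝ) i j) * DD [w', w, e i, e j] W z| ≤
      ε * Nk 4 W z := by
    rw [abs_mul]
    exact mul_le_mul (hs.b0 _ hz.2 i j) (DD_le hU hW (by simp [(he _).1, hw.1, hw'.1]) hz.1)
      (abs_nonneg _) ((abs_nonneg _).trans (hs.b0 _ hz.2 i j))
  have c2 : |Tm q (pv (q w) fun x => s x i j) [w', e i, e j] W z| ≤ δ₁ * Nk 3 W z :=
    Tm_le hU hW (by simp [(he _).1, hw'.1]) hz.1 (hs.d1 hδ₁ hw hz.2 i j)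
  have c3 : |Tm q (pv (q w') fun x => s x i j) [w, e i, e j] W z| ≤ δ₁ * Nk 3 W z :=
    Tm_le hU hW (by simp [(he _).1, hw.1]) hz.1 (hs.d1 hδ₁ hw' hz.2 i j)
  have c4 : |Tm q (pv (q w') (pv (q w) fun x => s x i j)) [e i, e j] W z| ≤ δ₂ * Nk 2 W z :=
    Tm_le hU hW (by simp [(he _).1]) hz.1 (hs.d2 hδ₂ hw hw' hz.2 i j)
  have c5 : |Tm q (pv (q (e i)) fun x => s x i j) [w', w, e j] W z| ≤ δ₁ * Nk 3 W z :=
    Tm_le hU hW (by simp [(he _).1, hw.1, hw'.1]) hz.1 (hs.d1 hδ₁ (he i) hz.2 i j)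
  have c6 : |Tm q (pv (q w) (pv (q (e i)) fun x => s x i j)) [w', e j] W z| ≤ δ₂ * Nk 2 W z :=
    Tm_le hU hW (by simp [(he _).1, hw'.1]) hz.1 (hs.d2 hδ₂ (he i) hw hz.2 i j)
  have c7 : |Tm q (pv (q w') (pv (q (e i)) fun x => s x i j)) [w, e j] W z| ≤ δ₂ * Nk 2 W z :=
    Tm_le hU hW (by simp [(he _).1, hw.1]) hz.1 (hs.d2 hδ₂ (he i) hw' hz.2 i j)
  have c8 : |Tm q (pv (q w') (pv (q w) (pv (q (e i)) fun x => s x i j))) [e j] W z| ≤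
      δ₃ * Nk 1 W z :=
    Tm_le hU hW (by simp [(he _).1]) hz.1 (hs.d3 hδ₃ (he i) hw hw' hz.2 i j)
  have e1 : Tm q (fun x => s x i j) [w', w, e i, e j] W z =
    s (q z) i j * DD [w', w, e i, e j] W z := rfl
  rw [abs_le] at c1 c2 c3 c4 c5 c6 c7 c8 ⊢
  constructor
  · linarith only [c1.1, c2.1, c3.1, c4.1, c5.1, c6.1, c7.1, c8.1, e1]
  · linarith only [c1.2, c2.2, c3.2, c4.2, c5.2, c6.2, c7.2, c8.2, e1]

/-- First derivatives of `Λ W` in the directions of the other variable. -/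
theorem L1_bd0 (hO : IsOpen O) (hU : IsOpen U) (hW : Sm U W) (hs : N3 O ε δ₁ δ₂ δ₃ s)
    (hδ₁ : 0 ≤ δ₁) (hz : z ∈ Dm q O U) (he : ∀ i, Dir q (e i)) (hw : ‖w‖ ≤ 1)
    (hw0 : q w = 0) : |DD [w] (Ld q e s W) z - ∑ i, DD [w, e i, e i] W z| ≤
      (n : ℝ) ^ 2 * (ε * Nk 3 W z + δ₁ * Nk 2 W z) := by
  rw [Ld_DD hO hs.sm hU hW e [w] hz, ← sum_one fun i j => DD [w, e i, e j] W z]
  simp only [← Finset.sum_sub_distrib]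
  refine sum_le2 fun i j => ?_
  rw [Tm_d hO hU (hs.sm i j) hW _ w hz, Tm_d hO hU (pv_sm hO (hs.sm i j) _) hW _ w hz]
  have c1 : |(s (q z) i j - (1 : Matrix (Fin n) (Fin n) ℝ) i j) * DD [w, e i, e j] W z| ≤
      ε * Nk 3 W z := by
    rw [abs_mul]
    exact mul_le_mul (hs.b0 _ hz.2 i j) (DD_le hU hW (by simp [(he _).1, hw]) hz.1)
      (abs_nonneg _) ((abs_nonneg _).trans (hs.b0 _ hz.2 i j))
  have c3 : |Tm q (pv (q (e i)) fun x => s x i j) [w, e j] W z| ≤ δ₁ * Nk 2 W z :=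
    Tm_le hU hW (by simp [(he _).1, hw]) hz.1 (hs.d1 hδ₁ (he i) hz.2 i j)
  have c2 : Tm q (pv (q w) fun x => s x i j) [e i, e j] W z = 0 := by
    rw [hw0, pv_zero]; simp [Tm]
  have c4 : Tm q (pv (q w) (pv (q (e i)) fun x => s x i j)) [e j] W z = 0 := by
    rw [hw0, pv_zero]; simp [Tm]
  have e1 : Tm q (fun x => s x i j) [w, e i, e j] W z =
    s (q z) i j * DD [w, e i, e j] W z := rfl
  rw [c2, c4]
  rw [abs_le] at c1 c3 ⊢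
  constructor
  · linarith only [c1.1, c3.1, e1]
  · linarith only [c1.2, c3.2, e1]

/-- Second derivatives of `Λ W` in the directions of the other variable. -/
theorem L2_bd0 (hO : IsOpen O) (hU : IsOpen U) (hW : Sm U W) (hs : N3 O ε δ₁ δ₂ δ₃ s)
    (hδ₁ : 0 ≤ δ₁) (hz : z ∈ Dm q O U) (he : ∀ i, Dir q (e i)) (hw : ‖w‖ ≤ 1)
    (hw0 : q w = 0) (hw' : ‖w'‖ ≤ 1) (hw0' : q w' = 0) :
    |DD [w', w] (Ld q e s W) z - ∑ i, DD [w', w, e i, e i] W z| ≤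
      (n : ℝ) ^ 2 * (ε * Nk 4 W z + δ₁ * Nk 3 W z) := by
  rw [Ld_DD hO hs.sm hU hW e [w', w] hz, ← sum_one fun i j => DD [w', w, e i, e j] W z]
  simp only [← Finset.sum_sub_distrib]
  refine sum_le2 fun i j => ?_
  rw [Tm_d2 hO hU (hs.sm i j) hW _ w' w hz, Tm_d2 hO hU (pv_sm hO (hs.sm i j) _) hW _ w' w hz]
  have c1 : |(s (q z) i j - (1 : Matrix (Fin n) (Fin n) ℝ) i j) * DD [w', w, e i, e j] W z| ≤
      ε * Nk 4 W z := by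
    rw [abs_mul]
    exact mul_le_mul (hs.b0 _ hz.2 i j) (DD_le hU hW (by simp [(he _).1, hw, hw']) hz.1)
      (abs_nonneg _) ((abs_nonneg _).trans (hs.b0 _ hz.2 i j))
  have c5 : |Tm q (pv (q (e i)) fun x => s x i j) [w', w, e j] W z| ≤ δ₁ * Nk 3 W z :=
    Tm_le hU hW (by simp [(he _).1, hw, hw']) hz.1 (hs.d1 hδ₁ (he i) hz.2 i j)
  have z0 : ∀ l, Tm q (fun _ => 0) l W z = 0 := fun l => by simp [Tm]
  have e1 : Tm q (fun x => s x i j) [w', w, e i, e j] W z =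
    s (q z) i j * DD [w', w, e i, e j] W z := rfl
  simp only [hw0, hw0', pv_zero, z0]
  rw [abs_le] at c1 c5 ⊢
  constructor
  · linarith only [c1.1, c5.1, e1]
  · linarith only [c1.2, c5.2, e1]

theorem flat_le (hU : IsOpen U) (hW : Sm U W) (hz : z ∈ U) {l : List (VV n)}
    (hl : ∀ v ∈ l, ‖v‖ ≤ 1) (hf : ∀ i, ‖f i‖ ≤ 1) {k : ℕ} (hk : k = l.length + 2) :
    |∑ i, DD (l ++ [f i, f i]) W z| ≤ n * Nk k W z := by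
  subst hk
  refine sum_le1 fun i => ?_
  have := DD_le hU hW (l := l ++ [f i, f i]) (z := z) (fun v hv => by
    rcases List.mem_append.1 hv with h | h
    · exact hl v h
    · rcases List.mem_cons.1 h with h | h
      · rw [h]; exact hf i
      · rw [List.mem_singleton.1 h]; exact hf i) hz
  simpa using this

/-- The frame of `Λ Λ W`. -/
theorem L4_gen (hε0 : 0 ≤ ε) (hε1 : ε ≤ 1) (hs₁ : N3 O₁ ε δ₁ δ₂ δ₃ s₁) (hδ₁ : 0 ≤ δ₁) (hp : p z ∈ O₁)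
    (he : ∀ i, Dir p (e i)) {F : VV n → ℝ} {T : Fin n → Fin n → ℝ} {A B C : ℝ}
    (hA : ∀ i j, |DD [e i, e j] F z - T i j| ≤ A) (hB : ∀ i j, |T i j| ≤ B)
    (hC : ∀ j, |DD [e j] F z| ≤ C) :
    |Ld p e s₁ F z - ∑ i, T i i| ≤ (n : ℝ) ^ 2 * (2 * A + ε * B + δ₁ * C) := by
  unfold Ld
  rw [← sum_one T]
  simp only [← Finset.sum_sub_distrib]
  refine sum_le2 fun i j => ?_
  have hA0 : 0 ≤ A := (abs_nonneg _).trans (hA i j)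
  have hB0 : 0 ≤ B := (abs_nonneg _).trans (hB i j)
  have t0 : |s₁ (p z) i j| ≤ 2 := by
    have : s₁ (p z) i j = (s₁ (p z) i j - (1 : Matrix (Fin n) (Fin n) ℝ) i j) +
      (1 : Matrix (Fin n) (Fin n) ℝ) i j := by ring
    rw [this]
    refine (abs_add_le _ _).trans ?_
    linarith only [hs₁.b0 _ hp i j, one_le1 i j, hε1]
  have c1 : |s₁ (p z) i j * (DD [e i, e j] F z - T i j)| ≤ 2 * A := by
    rw [abs_mul]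
    exact mul_le_mul t0 (hA i j) (abs_nonneg _) (by norm_num)
  have c2 : |(s₁ (p z) i j - (1 : Matrix (Fin n) (Fin n) ℝ) i j) * T i j| ≤ ε * B := by
    rw [abs_mul]
    exact mul_le_mul (hs₁.b0 _ hp i j) (hB i j) (abs_nonneg _) hε0
  have c3 : |Tm p (pv (p (e i)) fun x => s₁ x i j) [e j] F z| ≤ δ₁ * C := by
    unfold Tm
    rw [abs_mul]
    exact mul_le_mul (hs₁.d1 hδ₁ (he i) hp i j) (hC j) (abs_nonneg _) hδ₁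
  have e1 : Tm p (fun x => s₁ x i j) [e i, e j] F z = s₁ (p z) i j * DD [e i, e j] F z := rfl
  rw [e1]
  rw [abs_le] at c1 c2 c3 ⊢
  constructor
  · linarith only [c1.1, c2.1, c3.1]
  · linarith only [c1.2, c2.2, c3.2]

/-- `Λ Λ W`, the same variable. -/
theorem L4_same (hO : IsOpen O) (hU : IsOpen U) (hW : Sm U W) (hε0 : 0 ≤ ε) (hε1 : ε ≤ 1)
    (hs : N3 O ε δ₁ δ₂ δ₃ s)
    (hδ₁ : 0 ≤ δ₁) (hδ₂ : 0 ≤ δ₂) (hδ₃ : 0 ≤ δ₃) (hz : z ∈ Dm q O U) (he : ∀ i, Dir q (e i)) :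
    |Ld q e s (Ld q e s W) z - ∑ i, ∑ k, DD [e i, e i, e k, e k] W z| ≤
      10 * ((n : ℝ) ^ 4 + (n : ℝ) ^ 3) * (ε * Nk 4 W z + δ₁ * Nk 3 W z +
        (δ₂ + δ₁ ^ 2) * Nk 2 W z + (δ₃ + δ₁ * δ₂) * Nk 1 W z) := by
  have h := L4_gen (p := q) (e := e) (s₁ := s) (O₁ := O) (F := Ld q e s W)
    (T := fun i j => ∑ k, DD [e i, e j, e k, e k] W z) hε0 hε1 hs hδ₁ hz.2 he
    (fun i j => L2_bd hO hU hW hs hδ₁ hδ₂ hδ₃ hz he (he j) (he i))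
    (fun i j => flat_le (l := [e i, e j]) (k := 4) hU hW hz.1 (by simp [(he _).1])
      (fun i => (he i).1) rfl)
    (C := (n : ℝ) ^ 2 * (ε * Nk 3 W z + 2 * (δ₁ * Nk 2 W z) + δ₂ * Nk 1 W z) + n * Nk 3 W z)
    (fun j => by
      have h1 := L1_bd hO hU hW hs hδ₁ hδ₂ hz he (he j)
      have h2 := flat_le (l := [e j]) (k := 3) hU hW hz.1 (by simp [(he _).1])
        (fun i => (he i).1) rfl
      have h3 : DD [e j] (Ld q e s W) z = (DD [e j] (Ld q e s W) z - ∑ i, DD [e j, e i, e i] W z) +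
        ∑ i, DD ([e j] ++ [e i, e i]) W z := by simp
      rw [h3]
      exact (abs_add_le _ _).trans (add_le_add h1 h2))
  refine h.trans ?_
  have b1 := Nk_nonneg 1 W z
  have b2 := Nk_nonneg 2 W z
  have b3 := Nk_nonneg 3 W z
  have b4 := Nk_nonneg 4 W z
  have hn : (0 : ℝ) ≤ n := Nat.cast_nonneg n
  have hn4 : (0 : ℝ) ≤ (n : ℝ) ^ 4 := by positivity
  have hn3 : (0 : ℝ) ≤ (n : ℝ) ^ 3 := by positivity
  have q1 : 0 ≤ δ₁ * Nk 3 W z := by positivity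
  have q2 : 0 ≤ δ₂ * Nk 2 W z := by positivity
  have q3 : 0 ≤ δ₃ * Nk 1 W z := by positivity
  have q4 : 0 ≤ δ₁ ^ 2 * Nk 2 W z := by positivity
  have q5 : 0 ≤ δ₁ * δ₂ * Nk 1 W z := by positivity
  have q6 : 0 ≤ ε * Nk 4 W z := by positivity
  have q7 : ε * (δ₁ * Nk 3 W z) ≤ 1 * (δ₁ * Nk 3 W z) := mul_le_mul_of_nonneg_right hε1 q1
  have r1 := mul_nonneg hn4 q1
  have r2 := mul_nonneg hn4 q2
  have r3 := mul_nonneg hn4 q3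
  have r4 := mul_nonneg hn4 q4
  have r5 := mul_nonneg hn4 q5
  have r6 := mul_nonneg hn4 q6
  have r7 := mul_le_mul_of_nonneg_left q7 hn4
  have t1 := mul_nonneg hn3 q1
  have t2 := mul_nonneg hn3 q2
  have t3 := mul_nonneg hn3 q3
  have t4 := mul_nonneg hn3 q4
  have t5 := mul_nonneg hn3 q5
  have t6 := mul_nonneg hn3 q6
  have e1 : (n : ℝ) ^ 2 * (2 * ((n : ℝ) ^ 2 * (ε * Nk 4 W z + 3 * (δ₁ * Nk 3 W z) +
      3 * (δ₂ * Nk 2 W z) + δ₃ * Nk 1 W z)) + ε * (n * Nk 4 W z) +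
      δ₁ * ((n : ℝ) ^ 2 * (ε * Nk 3 W z + 2 * (δ₁ * Nk 2 W z) + δ₂ * Nk 1 W z) + n * Nk 3 W z)) =
      2 * ((n : ℝ) ^ 4 * (ε * Nk 4 W z)) + 6 * ((n : ℝ) ^ 4 * (δ₁ * Nk 3 W z)) +
      6 * ((n : ℝ) ^ 4 * (δ₂ * Nk 2 W z)) + 2 * ((n : ℝ) ^ 4 * (δ₃ * Nk 1 W z)) +
      (n : ℝ) ^ 3 * (ε * Nk 4 W z) + (n : ℝ) ^ 4 * (ε * (δ₁ * Nk 3 W z)) +
      2 * ((n : ℝ) ^ 4 * (δ₁ ^ 2 * Nk 2 W z)) + (n : ℝ) ^ 4 * (δ₁ * δ₂ * Nk 1 W z) +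
      (n : ℝ) ^ 3 * (δ₁ * Nk 3 W z) := by ring
  have e2 : 10 * ((n : ℝ) ^ 4 + (n : ℝ) ^ 3) * (ε * Nk 4 W z + δ₁ * Nk 3 W z +
        (δ₂ + δ₁ ^ 2) * Nk 2 W z + (δ₃ + δ₁ * δ₂) * Nk 1 W z) =
      10 * ((n : ℝ) ^ 4 * (ε * Nk 4 W z)) + 10 * ((n : ℝ) ^ 4 * (δ₁ * Nk 3 W z)) +
      10 * ((n : ℝ) ^ 4 * (δ₂ * Nk 2 W z)) + 10 * ((n : ℝ) ^ 4 * (δ₃ * Nk 1 W z)) +
      10 * ((n : ℝ) ^ 4 * (δ₁ ^ 2 * Nk 2 W z)) + 10 * ((n : ℝ) ^ 4 * (δ₁ * δ₂ * Nk 1 W z)) +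
      (10 * ((n : ℝ) ^ 3 * (ε * Nk 4 W z)) + 10 * ((n : ℝ) ^ 3 * (δ₁ * Nk 3 W z)) +
      10 * ((n : ℝ) ^ 3 * (δ₂ * Nk 2 W z)) + 10 * ((n : ℝ) ^ 3 * (δ₃ * Nk 1 W z)) +
      10 * ((n : ℝ) ^ 3 * (δ₁ ^ 2 * Nk 2 W z)) + 10 * ((n : ℝ) ^ 3 * (δ₁ * δ₂ * Nk 1 W z))) := by
    ring
  rw [e1, e2]
  linarith only [r1, r2, r3, r4, r5, r6, r7, t1, t2, t3, t4, t5, t6]

/-- `Λ Λ' W`, different variables. -/
theorem L4_mix (hO : IsOpen O₂) (hU : IsOpen U) (hW : Sm U W) (hε0 : 0 ≤ ε) (hε1 : ε ≤ 1)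
    (hs₁ : N3 O₁ ε δ₁ δ₂ δ₃ s₁) (hs₂ : N3 O₂ ε δ₁ δ₂ δ₃ s₂)
    (hδ₁ : 0 ≤ δ₁) (hp : p z ∈ O₁) (hz : z ∈ Dm q O₂ U) (he : ∀ i, Dir p (e i))
    (he0 : ∀ i, q (e i) = 0) (hf : ∀ i, Dir q (f i)) :
    |Ld p e s₁ (Ld q f s₂ W) z - ∑ i, ∑ k, DD [e i, e i, f k, f k] W z| ≤
      10 * ((n : ℝ) ^ 4 + (n : ℝ) ^ 3) * (ε * Nk 4 W z + δ₁ * Nk 3 W z + δ₁ ^ 2 * Nk 2 W z) := by
  have h := L4_gen (p := p) (e := e) (s₁ := s₁) (O₁ := O₁) (F := Ld q f s₂ W)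
    (T := fun i j => ∑ k, DD [e i, e j, f k, f k] W z) hε0 hε1 hs₁ hδ₁ hp he
    (fun i j => L2_bd0 hO hU hW hs₂ hδ₁ hz hf (he j).1 (he0 j) (he i).1 (he0 i))
    (fun i j => flat_le (l := [e i, e j]) (k := 4) hU hW hz.1 (by simp [(he _).1])
      (fun i => (hf i).1) rfl)
    (C := (n : ℝ) ^ 2 * (ε * Nk 3 W z + δ₁ * Nk 2 W z) + n * Nk 3 W z)
    (fun j => by
      have h1 := L1_bd0 hO hU hW hs₂ hδ₁ hz hf (he j).1 (he0 j)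
      have h2 := flat_le (l := [e j]) (k := 3) hU hW hz.1 (by simp [(he _).1])
        (fun i => (hf i).1) rfl
      have h3 : DD [e j] (Ld q f s₂ W) z = (DD [e j] (Ld q f s₂ W) z - ∑ i, DD [e j, f i, f i] W z) +
        ∑ i, DD ([e j] ++ [f i, f i]) W z := by simp
      rw [h3]
      exact (abs_add_le _ _).trans (add_le_add h1 h2))
  refine h.trans ?_
  have b2 := Nk_nonneg 2 W z
  have b3 := Nk_nonneg 3 W z
  have b4 := Nk_nonneg 4 W z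
  have hn4 : (0 : ℝ) ≤ (n : ℝ) ^ 4 := by positivity
  have hn3 : (0 : ℝ) ≤ (n : ℝ) ^ 3 := by positivity
  have q1 : 0 ≤ δ₁ * Nk 3 W z := by positivity
  have q4 : 0 ≤ δ₁ ^ 2 * Nk 2 W z := by positivity
  have q6 : 0 ≤ ε * Nk 4 W z := by positivity
  have q7 : ε * (δ₁ * Nk 3 W z) ≤ 1 * (δ₁ * Nk 3 W z) := mul_le_mul_of_nonneg_right hε1 q1
  have r1 := mul_nonneg hn4 q1
  have r4 := mul_nonneg hn4 q4
  have r6 := mul_nonneg hn4 q6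
  have r7 := mul_le_mul_of_nonneg_left q7 hn4
  have t1 := mul_nonneg hn3 q1
  have t4 := mul_nonneg hn3 q4
  have t6 := mul_nonneg hn3 q6
  have e1 : (n : ℝ) ^ 2 * (2 * ((n : ℝ) ^ 2 * (ε * Nk 4 W z + δ₁ * Nk 3 W z)) +
      ε * (n * Nk 4 W z) +
      δ₁ * ((n : ℝ) ^ 2 * (ε * Nk 3 W z + δ₁ * Nk 2 W z) + n * Nk 3 W z)) =
      2 * ((n : ℝ) ^ 4 * (ε * Nk 4 W z)) + 2 * ((n : ℝ) ^ 4 * (δ₁ * Nk 3 W z)) +
      (n : ℝ) ^ 3 * (ε * Nk 4 W z) + (n : ℝ) ^ 4 * (ε * (δ₁ * Nk 3 W z)) +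
      (n : ℝ) ^ 4 * (δ₁ ^ 2 * Nk 2 W z) + (n : ℝ) ^ 3 * (δ₁ * Nk 3 W z) := by ring
  have e2 : 10 * ((n : ℝ) ^ 4 + (n : ℝ) ^ 3) * (ε * Nk 4 W z + δ₁ * Nk 3 W z +
        δ₁ ^ 2 * Nk 2 W z) =
      10 * ((n : ℝ) ^ 4 * (ε * Nk 4 W z)) + 10 * ((n : ℝ) ^ 4 * (δ₁ * Nk 3 W z)) +
      10 * ((n : ℝ) ^ 4 * (δ₁ ^ 2 * Nk 2 W z)) +
      (10 * ((n : ℝ) ^ 3 * (ε * Nk 4 W z)) + 10 * ((n : ℝ) ^ 3 * (δ₁ * Nk 3 W z)) +
      10 * ((n : ℝ) ^ 3 * (δ₁ ^ 2 * Nk 2 W z))) := by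
    ring
  rw [e1, e2]
  linarith only [r1, r4, r6, r7, t1, t4, t6]

end Vale.Agent.P088.R2.H973.W
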