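import Vale.Agent.P088.R2.H973.W.UC

/-!
# P088: the star density of close data
-/

open Set Filter
open scoped ContDiff Topology

noncomputable section

namespace Vale.Agent.P088.R2.H973.W

open Vale.Agent.P088.R2.H961.GW Vale.Agent.P088.R2.H960.W Vale.Agent.P088.R2.H644
open Vale.Agent.P088.R2.H551.E

variable {P E δ ι κ : Type*} [NormedAddCommGroup E] [NormedSpace ℝ E] [Fintype ι] [Fintype κ]
  {V : Env P E δ} {c : ι → δ} {c' : κ → δ} {j k : ℕ} {σ σ' : P → Sl E ι} {τ τ' : P → Sl E κ}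
  {W W' f f' g g' v₁ v₁' v₂ v₂' : P → E → ℝ}

theorem SF.Hc (h : SF V c k σ σ') (hW : UD V (j + 1) W W') (hj : j ≤ k) (i l : ι) :
    UC V j (fun p => (σ p).Hc (W p) i l) (fun p => (σ' p).Hc (W' p) i l) := by
  have hD : ∀ i, UC V (j + 1) (fun p => (σ p).D i (W p)) (fun p => (σ' p).D i (W' p)) :=
    fun i => h.D hW (by omega) i
  have hDD : ∀ i l, UC V j (fun p => (σ p).D i ((σ p).D l (W p)))
      (fun p => (σ' p).D i ((σ' p).D l (W' p))) := fun i l => h.D (hD l).ud (by omega) i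
  have hs : ∀ i l, UC V j (fun p => (σ p).s i l) (fun p => (σ' p).s i l) := fun i l =>
    (h.s i l).mono (by omega)
  have hds : ∀ m i l, UC V j (fun p => (σ p).D m ((σ p).s i l))
      (fun p => (σ' p).D m ((σ' p).s i l)) := fun m i l =>
    (h.D (h.s i l).ud (by omega) m).mono hj
  have hη : ∀ i, UC V j (fun p => (σ p).η i) (fun p => (σ' p).η i) := fun i =>
    (h.η i).mono hj
  unfold Sl.Hc
  refine UC.cmul (1 / 2) (UC.sum _ fun m _ => UC.sum _ fun q _ => ?_)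
  exact ((((hs i m).mul (hs q l)).mul ((hDD m q).add (hDD q m))).add
    ((((hs i m).mul ((hds m q l).add ((hη m).mul (hs q l)))).add
      ((hs l m).mul ((hds m q i).add ((hη m).mul (hs q i))))).mul (hD q).pred)).sub
    (((hs m q).mul (hD m).pred).mul (hds q i l)) |>.sub
    (((((hs m q).mul (hD m).pred).mul (hη q)).cmul 2).mul (hs i l))

theorem SF.Mc (h : SF V c k σ σ') (h' : SF V c' k τ τ') (hW : UD V (j + 1) W W') (hj : j ≤ k)
    (i : ι) (l : κ) :
    UC V j (fun p => Ch.Mc (σ p) (τ p) (W p) i l) (fun p => Ch.Mc (σ' p) (τ' p) (W' p) i l) := by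
  unfold Ch.Mc
  refine UC.sum _ fun m _ => UC.sum _ fun q _ => ?_
  exact (((h.s i m).mono (by omega)).mul ((h'.s l q).mono (by omega))).mul
    (h.D (h'.D hW (by omega) q).ud (by omega) m)

theorem SF.M2 (h : SF V c k σ σ') (h' : SF V c' k τ τ') (hW : UD V (j + 1) W W') (hj : j ≤ k) :
    UC V j (fun p => M2 (σ p) (τ p) (W p) (W p)) (fun p => M2 (σ' p) (τ' p) (W' p) (W' p)) := by
  unfold Vale.Agent.P088.R2.H961.GW.M2
  refine UC.sum _ fun m _ => UC.sum _ fun q _ => ?_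
  exact ((h'.s m q).mono (by omega)).mul
    (h.Γ (h'.D hW (by omega) m).ud (h'.D hW (by omega) q).ud (by omega))

theorem SF.G2 (h : SF V c 2 σ σ') (hW : UD V 3 W W') :
    UC V 1 (fun p => Ch.G2 (σ p) (W p)) (fun p => Ch.G2 (σ' p) (W' p)) := by
  unfold Ch.G2
  have hF : UC V 3 (fun p => (σ p).F (W p)) (fun p => (σ' p).F (W' p)) := h.Γ hW hW (by omega)
  have hL : UC V 2 (fun p => (σ p).Λ (W p)) (fun p => (σ' p).Λ (W' p)) := h.Λ hW (by omega)
  exact ((h.Λ hF.ud (j := 1) (by omega)).cmul (1 / 2)).sub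
    (h.Γ (hW.mono (by omega)) hL.ud (by omega))

omit [Fintype κ] in
/-- The pairing with the starred derivatives. -/
theorem X1_XX (σ : Sl E ι) (W f a : E → ℝ) (z : E) :
    Ch.X1 σ W f a z = ∑ i, ∑ j, σ.s i j z * σ.D i f z * Ch.XX σ W a z j := by
  unfold Ch.X1 Sl.Γ Ch.XX
  rw [Finset.mul_sum, ← Finset.sum_sub_distrib]
  refine Finset.sum_congr rfl fun i _ => ?_
  rw [Finset.mul_sum, ← Finset.sum_sub_distrib]
  exact Finset.sum_congr rfl fun j _ => by ring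

section num

variable {A A' : ι → P → ℝ} {B B' : κ → P → ℝ} {a b : P → ℝ}

theorem cl_TH (h : SF V c 2 σ σ') (h' : SF V c' 2 τ τ') (hW : UD V 3 W W')
    (hA : ∀ i, Cl V 1 (A i) (A' i)) (hB : ∀ i, Cl V 1 (B i) (B' i)) :
    Cl V 2 (fun p => Ch.TH (σ p) (τ p) (W p) (V.z p) (fun i => A i p) (fun i => B i p))
      (fun p => Ch.TH (σ' p) (τ' p) (W' p) (V.z p) (fun i => A' i p) (fun i => B' i p)) := by
  unfold Ch.TH
  have hW1 : UD V 1 W W' := hW.mono (by omega)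
  refine ((Cl.sum _ fun i _ => Cl.sum _ fun l _ => ?_).add ((Cl.sum _ fun i _ =>
    Cl.sum _ fun l _ => ?_).cmul 2)).add (Cl.sum _ fun i _ => Cl.sum _ fun l _ => ?_)
  · exact ((h.Hc (j := 0) hW1 (by omega) i l).val.mul (hA i)).mul (hA l)
  · exact ((h.Mc h' (j := 0) hW1 (by omega) i l).val.mul (hA i)).mul (hB l)
  · exact ((h'.Hc (j := 0) hW1 (by omega) i l).val.mul (hB i)).mul (hB l)

end num

section star

variable {a b : P → E → ℝ}

/-- The unknowns are of degree one. -/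
structure Un (V : Env P E δ) (σ σ' : P → Sl E ι) (W W' : P → E → ℝ) (a : P → E → ℝ) : Prop where
  v : Cl V 1 (fun p => a p (V.z p)) (fun p => a p (V.z p))
  x : ∀ i, Cl V 1 (fun p => Ch.XX (σ p) (W p) (a p) (V.z p) i)
    (fun p => Ch.XX (σ' p) (W' p) (a p) (V.z p) i)

theorem cl_X1 (h : SF V c k σ σ') (hf : UD V 0 f f') (ha : Un V σ σ' W W' a) :
    Cl V 1 (fun p => Ch.X1 (σ p) (W p) (f p) (a p) (V.z p))
      (fun p => Ch.X1 (σ' p) (W' p) (f' p) (a p) (V.z p)) := by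
  refine Cl.congr ?_ (fun p => X1_XX (σ p) (W p) (f p) (a p) (V.z p))
    (fun p => X1_XX (σ' p) (W' p) (f' p) (a p) (V.z p))
  refine Cl.sum _ fun i _ => Cl.sum _ fun l _ => ?_
  have := (((h.s i l).val).mul (h.D (j := 0) hf (by omega) i).val).mul (ha.x l)
  exact this

/-- **The star density is Lipschitz in the data.** -/
theorem cl_sta (h : SF V c 2 σ σ') (h' : SF V c' 2 τ τ') (hW : UD V 3 W W')
    (h₁ : UD V 0 v₁ v₁') (h₂ : UD V 0 v₂ v₂') (ha : Un V σ σ' W W' a) (hb : Un V τ τ' W W' b) :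
    Cl V 2 (fun p => sta (σ p) (τ p) (v₁ p) (v₂ p) (W p) (a p) (b p) (V.z p))
      (fun p => sta (σ' p) (τ' p) (v₁' p) (v₂' p) (W' p) (a p) (b p) (V.z p)) := by
  have hW0 : UD V 0 W W' := hW.mono (by omega)
  have hW1 : UD V 1 W W' := hW.mono (by omega)
  have t := (cl_TH h h' hW ha.x hb.x).cmul 8
  have L : UC V 2 (fun p => (σ p).Λ (W p)) (fun p => (σ' p).Λ (W' p)) := h.Λ hW (by omega)
  have L' : UC V 2 (fun p => (τ p).Λ (W p)) (fun p => (τ' p).Λ (W' p)) := h'.Λ hW (by omega)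
  have L0 := (L.mono (j := 1) (by omega)).ud
  have L0' := (L'.mono (j := 1) (by omega)).ud
  have a2 : Cl V 2 (fun p => a p (V.z p) ^ 2) (fun p => a p (V.z p) ^ 2) :=
    (ha.v.mul ha.v).congr (fun p => sq _) fun p => sq _
  have b2 : Cl V 2 (fun p => b p (V.z p) ^ 2) (fun p => b p (V.z p) ^ 2) :=
    (hb.v.mul hb.v).congr (fun p => sq _) fun p => sq _
  have ab : Cl V 2 (fun p => a p (V.z p) * b p (V.z p)) (fun p => a p (V.z p) * b p (V.z p)) :=
    ha.v.mul hb.v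
  have m0 : ∀ {f g f' g' : P → ℝ}, Cl V 0 f g → Cl V 2 f' g' →
      Cl V 2 (fun p => f p * f' p) (fun p => g p * g' p) := fun h h' => by
    have := h.mul h'
    rwa [zero_add] at this
  have g := ((m0 (h.G2 hW).val a2).add ((m0 (h.M2 h' (j := 0) hW1 (by omega)).val ab).cmul 2)).add
    (m0 (h'.G2 hW).val b2)
  have x := (((ha.v.mul (cl_X1 h L0 ha)).add (hb.v.mul (cl_X1 h L0' ha))).add
    (ha.v.mul (cl_X1 h' L0 hb))).add (hb.v.mul (cl_X1 h' L0' hb))
  have l := ((m0 (h.Λ (j := 0) (L.mono (j := 2) (by omega)).ud (by omega)).val a2).add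
    ((m0 (h.Λ (j := 0) L'.ud (by omega)).val ab).cmul 2)).add
    (m0 (h'.Λ (j := 0) L'.ud (by omega)).val b2)
  have q := (m0 (h.Γ (j := 0) hW0 h₁ (by omega)).val a2).add
    (m0 (h'.Γ (j := 0) hW0 h₂ (by omega)).val b2)
  exact t.add ((((g.cmul 8).neg.sub (x.cmul 8)).add (l.cmul 2)).add (q.cmul 4))

end star

end Vale.Agent.P088.R2.H973.W
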