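import Vale.Agent.P088.R2.H551.E.Dens

/-!
# P088: uniformly close families of functions

A family is indexed by all admissible data `p`; `UC k f g`: at the point `z p` the derivatives of
order `≤ k` of `f p` and `g p` (in the directions `e d`) are bounded, with differences `O(ε p)`.
-/

open Set Filter
open scoped ContDiff Topology

noncomputable section

namespace Vale.Agent.P088.R2.H973.W

open Vale.Agent.P088.R2.H961.GW

/-- The domain, the point, the size of the difference, the size of the unknowns. -/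
structure Env (P E δ : Type*) [NormedAddCommGroup E] [NormedSpace ℝ E] where
  U : P → Set E
  z : P → E
  ε : P → ℝ
  m : P → ℝ
  e : δ → E
  op : ∀ p, IsOpen (U p)
  mem : ∀ p, z p ∈ U p
  ep : ∀ p, 0 ≤ ε p
  mp : ∀ p, 0 ≤ m p

variable {P E δ : Type*} [NormedAddCommGroup E] [NormedSpace ℝ E]

/-- Close numbers of degree `k`. -/
def Cl (V : Env P E δ) (k : ℕ) (f g : P → ℝ) : Prop :=
  ∃ C : ℝ, 0 ≤ C ∧ ∀ p, |f p| ≤ C * V.m p ^ k ∧ |g p| ≤ C * V.m p ^ k ∧
    |f p - g p| ≤ C * (V.ε p * V.m p ^ k)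

section cl

variable {V : Env P E δ} {j k : ℕ} {f g f' g' : P → ℝ}

theorem Cl.const (c : ℝ) : Cl V 0 (fun _ => c) (fun _ => c) := by
  refine ⟨|c|, abs_nonneg c, fun p => ?_⟩
  have h := mul_nonneg (abs_nonneg c) (V.ep p)
  simp only [pow_zero, mul_one, le_refl, sub_self, abs_zero, true_and]
  exact h

theorem Cl.mul (h : Cl V j f g) (h' : Cl V k f' g') :
    Cl V (j + k) (fun p => f p * f' p) (fun p => g p * g' p) := by
  obtain ⟨C, hC, h⟩ := h
  obtain ⟨C', hC', h'⟩ := h'
  refine ⟨2 * (C * C'), by positivity, fun p => ?_⟩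
  obtain ⟨a1, a2, a3⟩ := h p
  obtain ⟨b1, b2, b3⟩ := h' p
  have hm := V.mp p
  have he := V.ep p
  have q1 : 0 ≤ V.m p ^ j := by positivity
  have q2 : 0 ≤ V.m p ^ k := by positivity
  have e1 : C * V.m p ^ j * (C' * V.m p ^ k) = C * C' * V.m p ^ (j + k) := by ring
  have e0 : 0 ≤ C * C' * V.m p ^ (j + k) := by positivity
  refine ⟨?_, ?_, ?_⟩
  · rw [abs_mul]
    refine (mul_le_mul a1 b1 (abs_nonneg _) (by positivity)).trans ?_
    rw [e1]; linarith
  · rw [abs_mul]
    refine (mul_le_mul a2 b2 (abs_nonneg _) (by positivity)).trans ?_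
    rw [e1]; linarith
  · have e : f p * f' p - g p * g' p = (f p - g p) * f' p + g p * (f' p - g' p) := by ring
    rw [e]
    refine (abs_add_le _ _).trans ?_
    rw [abs_mul, abs_mul]
    have c1 : |f p - g p| * |f' p| ≤ C * (V.ε p * V.m p ^ j) * (C' * V.m p ^ k) :=
      mul_le_mul a3 b1 (abs_nonneg _) (by positivity)
    have c2 : |g p| * |f' p - g' p| ≤ C * V.m p ^ j * (C' * (V.ε p * V.m p ^ k)) :=
      mul_le_mul a2 b3 (abs_nonneg _) (by positivity)
    refine (add_le_add c1 c2).trans (le_of_eq ?_)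
    ring

theorem Cl.add (h : Cl V k f g) (h' : Cl V k f' g') :
    Cl V k (fun p => f p + f' p) (fun p => g p + g' p) := by
  obtain ⟨C, hC, h⟩ := h
  obtain ⟨C', hC', h'⟩ := h'
  refine ⟨C + C', by positivity, fun p => ?_⟩
  obtain ⟨a1, a2, a3⟩ := h p
  obtain ⟨b1, b2, b3⟩ := h' p
  refine ⟨?_, ?_, ?_⟩
  · rw [add_mul]; exact (abs_add_le _ _).trans (add_le_add a1 b1)
  · rw [add_mul]; exact (abs_add_le _ _).trans (add_le_add a2 b2)
  · have e : f p + f' p - (g p + g' p) = f p - g p + (f' p - g' p) := by ring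
    rw [e, add_mul]; exact (abs_add_le _ _).trans (add_le_add a3 b3)

theorem Cl.cmul (c : ℝ) (h : Cl V k f g) : Cl V k (fun p => c * f p) (fun p => c * g p) := by
  have := (Cl.const (V := V) c).mul h
  rwa [zero_add] at this

theorem Cl.neg (h : Cl V k f g) : Cl V k (fun p => -f p) (fun p => -g p) := by
  have := h.cmul (-1)
  simpa using this

theorem Cl.sub (h : Cl V k f g) (h' : Cl V k f' g') :
    Cl V k (fun p => f p - f' p) (fun p => g p - g' p) := by
  have := h.add h'.neg
  simpa only [← sub_eq_add_neg] using this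

theorem Cl.zero (k : ℕ) : Cl V k (fun _ => (0 : ℝ)) (fun _ => 0) := by
  refine ⟨0, le_refl _, fun p => ?_⟩
  simp

theorem Cl.sum {α : Type*} (S : Finset α) {f g : α → P → ℝ} (h : ∀ a ∈ S, Cl V k (f a) (g a)) :
    Cl V k (fun p => ∑ a ∈ S, f a p) (fun p => ∑ a ∈ S, g a p) := by
  classical
  induction S using Finset.induction_on with
  | empty => simpa using Cl.zero k
  | insert a S ha ih =>
    simp only [Finset.sum_insert ha]
    exact (h a (Finset.mem_insert_self a S)).add
      (ih fun i hi => h i (Finset.mem_insert_of_mem hi))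

theorem Cl.congr (h : Cl V k f g) (hf : ∀ p, f' p = f p) (hg : ∀ p, g' p = g p) :
    Cl V k f' g' := by
  have e1 : f' = f := funext hf
  have e2 : g' = g := funext hg
  rw [e1, e2]; exact h

end cl

/-- The derivative in the direction `v`. -/
def dv (v : E) (f : P → E → ℝ) (p : P) (w : E) : ℝ := fderiv ℝ (f p) w v

/-- Close families of functions. -/
def UC (V : Env P E δ) : ℕ → (P → E → ℝ) → (P → E → ℝ) → Prop
  | 0, f, g => (∀ p, Sm (V.U p) (f p)) ∧ (∀ p, Sm (V.U p) (g p)) ∧
      Cl V 0 (fun p => f p (V.z p)) (fun p => g p (V.z p))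
  | k + 1, f, g => UC V 0 f g ∧ ∀ d : δ, UC V k (dv (V.e d) f) (dv (V.e d) g)

section uc

variable {V : Env P E δ} {j k : ℕ} {f g f' g' : P → E → ℝ}

theorem UC.z0 (h1 : ∀ p, Sm (V.U p) (f p)) (h2 : ∀ p, Sm (V.U p) (g p))
    (h3 : Cl V 0 (fun p => f p (V.z p)) (fun p => g p (V.z p))) : UC V 0 f g := by
  rw [UC]; exact ⟨h1, h2, h3⟩

theorem UC.sc (h0 : UC V 0 f g) (h : ∀ d : δ, UC V k (dv (V.e d) f) (dv (V.e d) g)) :
    UC V (k + 1) f g := by
  rw [UC]; exact ⟨h0, h⟩

theorem UC.d (h : UC V (k + 1) f g) (d : δ) : UC V k (dv (V.e d) f) (dv (V.e d) g) := by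
  rw [UC] at h; exact h.2 d

theorem UC.zro (h : UC V k f g) : UC V 0 f g := by
  cases k with
  | zero => exact h
  | succ k => rw [UC] at h; exact h.1

theorem UC.sf (h : UC V k f g) (p : P) : Sm (V.U p) (f p) := by
  have := h.zro; rw [UC] at this; exact this.1 p

theorem UC.sg (h : UC V k f g) (p : P) : Sm (V.U p) (g p) := by
  have := h.zro; rw [UC] at this; exact this.2.1 p

theorem UC.val (h : UC V k f g) : Cl V 0 (fun p => f p (V.z p)) (fun p => g p (V.z p)) := by
  have := h.zro; rw [UC] at this; exact this.2.2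

theorem UC.pred (h : UC V (k + 1) f g) : UC V k f g := by
  induction k generalizing f g with
  | zero => exact h.zro
  | succ k ih => exact UC.sc h.zro fun d => ih (h.d d)

theorem UC.mono (h : UC V k f g) (hj : j ≤ k) : UC V j f g := by
  induction k with
  | zero => rw [Nat.le_zero.1 hj]; exact h
  | succ k ih =>
    rcases Nat.le_succ_iff_eq_or_le.1 hj with h1 | h1
    · rw [h1]; exact h
    · exact ih h.pred h1

theorem dv_congr {f f' : P → E → ℝ} (h : ∀ p, ∀ w ∈ V.U p, f' p w = f p w) (v : E) :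
    ∀ p, ∀ w ∈ V.U p, dv v f' p w = dv v f p w := by
  intro p w hw
  have : f' p =ᶠ[𝓝 w] f p := by
    filter_upwards [(V.op p).mem_nhds hw] with x hx using h p x hx
  simp only [dv, this.fderiv_eq]

theorem UC.congr (h : UC V k f g) (hf : ∀ p, ∀ w ∈ V.U p, f' p w = f p w)
    (hg : ∀ p, ∀ w ∈ V.U p, g' p w = g p w) : UC V k f' g' := by
  have base : ∀ {f g f' g' : P → E → ℝ}, UC V 0 f g → (∀ p, ∀ w ∈ V.U p, f' p w = f p w) →
      (∀ p, ∀ w ∈ V.U p, g' p w = g p w) → UC V 0 f' g' := by
    intro f g f' g' h hf hg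
    exact UC.z0 (fun p => (h.sf p).congr (hf p)) (fun p => (h.sg p).congr (hg p))
      (h.val.congr (fun p => hf p _ (V.mem p)) fun p => hg p _ (V.mem p))
  induction k generalizing f g f' g' with
  | zero => exact base h hf hg
  | succ k ih =>
    exact UC.sc (base h.zro hf hg) fun d => ih (h.d d) (dv_congr hf _) (dv_congr hg _)

theorem UC.add (h : UC V k f g) (h' : UC V k f' g') :
    UC V k (fun p w => f p w + f' p w) (fun p w => g p w + g' p w) := by
  have base : ∀ {f g f' g' : P → E → ℝ}, UC V 0 f g → UC V 0 f' g' →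
      UC V 0 (fun p w => f p w + f' p w) (fun p w => g p w + g' p w) := fun h h' =>
    UC.z0 (fun p => (h.sf p).add (h'.sf p)) (fun p => (h.sg p).add (h'.sg p)) (h.val.add h'.val)
  induction k generalizing f g f' g' with
  | zero => exact base h h'
  | succ k ih =>
    refine UC.sc (base h.zro h'.zro) fun d => (ih (h.d d) (h'.d d)).congr ?_ ?_
    · intro p w hw
      simp only [dv]
      rw [fderiv_fun_add ((h.sf p).diff (V.op p) hw) ((h'.sf p).diff (V.op p) hw)]
      rfl
    · intro p w hw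
      simp only [dv]
      rw [fderiv_fun_add ((h.sg p).diff (V.op p) hw) ((h'.sg p).diff (V.op p) hw)]
      rfl

theorem UC.mul (h : UC V k f g) (h' : UC V k f' g') :
    UC V k (fun p w => f p w * f' p w) (fun p w => g p w * g' p w) := by
  have base : ∀ {f g f' g' : P → E → ℝ}, UC V 0 f g → UC V 0 f' g' →
      UC V 0 (fun p w => f p w * f' p w) (fun p w => g p w * g' p w) := fun h h' =>
    UC.z0 (fun p => (h.sf p).mul (h'.sf p)) (fun p => (h.sg p).mul (h'.sg p)) (h.val.mul h'.val)
  induction k generalizing f g f' g' with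
  | zero => exact base h h'
  | succ k ih =>
    refine UC.sc (base h.zro h'.zro) fun d =>
      ((ih (h.d d) h'.pred).add (ih h.pred (h'.d d))).congr ?_ ?_
    · intro p w hw
      simp only [dv]
      rw [fderiv_fun_mul ((h.sf p).diff (V.op p) hw) ((h'.sf p).diff (V.op p) hw)]
      simp only [_root_.add_apply, _root_.smul_apply, smul_eq_mul]; ring
    · intro p w hw
      simp only [dv]
      rw [fderiv_fun_mul ((h.sg p).diff (V.op p) hw) ((h'.sg p).diff (V.op p) hw)]
      simp only [_root_.add_apply, _root_.smul_apply, smul_eq_mul]; ring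

theorem UC.const (c : ℝ) (k : ℕ) : UC V k (fun _ _ => c) (fun _ _ => c) := by
  induction k generalizing c with
  | zero => exact UC.z0 (fun p => contDiffOn_const) (fun p => contDiffOn_const) (Cl.const c)
  | succ k ih =>
    refine UC.sc (UC.z0 (fun p => contDiffOn_const) (fun p => contDiffOn_const) (Cl.const c))
      fun d => ?_
    refine (ih 0).congr ?_ ?_ <;> intro p w _ <;> simp [dv]

theorem UC.cmul (c : ℝ) (h : UC V k f g) : UC V k (fun p w => c * f p w) (fun p w => c * g p w) :=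
  (UC.const c k).mul h

theorem UC.neg (h : UC V k f g) : UC V k (fun p w => -f p w) (fun p w => -g p w) := by
  have := h.cmul (-1)
  simpa using this

theorem UC.sub (h : UC V k f g) (h' : UC V k f' g') :
    UC V k (fun p w => f p w - f' p w) (fun p w => g p w - g' p w) := by
  have := h.add h'.neg
  simpa only [← sub_eq_add_neg] using this

theorem UC.sum {α : Type*} (S : Finset α) {f g : α → P → E → ℝ}
    (h : ∀ a ∈ S, UC V k (f a) (g a)) :
    UC V k (fun p w => ∑ a ∈ S, f a p w) (fun p w => ∑ a ∈ S, g a p w) := by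
  classical
  induction S using Finset.induction_on with
  | empty => simpa using UC.const 0 k
  | insert a S ha ih =>
    simp only [Finset.sum_insert ha]
    exact (h a (Finset.mem_insert_self a S)).add
      (ih fun i hi => h i (Finset.mem_insert_of_mem hi))

end uc

/-- Only the derivatives of order `1, …, k + 1` are close. -/
structure UD (V : Env P E δ) (k : ℕ) (f g : P → E → ℝ) : Prop where
  sf : ∀ p, Sm (V.U p) (f p)
  sg : ∀ p, Sm (V.U p) (g p)
  d : ∀ d : δ, UC V k (dv (V.e d) f) (dv (V.e d) g)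

section ud

variable {V : Env P E δ} {j k : ℕ} {f g f' g' : P → E → ℝ}

theorem UC.ud (h : UC V (k + 1) f g) : UD V k f g := ⟨h.sf, h.sg, h.d⟩

theorem UD.mono (h : UD V k f g) (hj : j ≤ k) : UD V j f g :=
  ⟨h.sf, h.sg, fun d => (h.d d).mono hj⟩

end ud

/-- Close slots; `k` derivatives of `Λ` are controlled. -/
structure SF (V : Env P E δ) {ι : Type*} (c : ι → δ) (k : ℕ) (σ σ' : P → Sl E ι) : Prop where
  e : ∀ p i, (σ p).e i = V.e (c i)
  e' : ∀ p i, (σ' p).e i = V.e (c i)
  ρ : UC V (k + 1) (fun p => (σ p).ρ) (fun p => (σ' p).ρ)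
  s : ∀ i j, UC V (k + 1) (fun p => (σ p).s i j) (fun p => (σ' p).s i j)
  kk : ∀ i, UC V k (fun p => (σ p).k i) (fun p => (σ' p).k i)

section sf

variable {V : Env P E δ} {ι : Type*} {c : ι → δ} {j k : ℕ} {σ σ' : P → Sl E ι}
  {f g f' g' : P → E → ℝ}

theorem SF.mono (h : SF V c k σ σ') (hj : j ≤ k) : SF V c j σ σ' :=
  ⟨h.e, h.e', h.ρ.mono (by omega), fun i l => (h.s i l).mono (by omega),
    fun i => (h.kk i).mono hj⟩

theorem SF.D (h : SF V c k σ σ') (hf : UD V j f g) (hj : j ≤ k + 1) (i : ι) :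
    UC V j (fun p => (σ p).D i (f p)) (fun p => (σ' p).D i (g p)) := by
  refine ((h.ρ.mono hj).mul (hf.d (c i))).congr ?_ ?_
  · intro p w _
    simp only [Sl.D, dv, h.e p i]
  · intro p w _
    simp only [Sl.D, dv, h.e' p i]

theorem SF.η (h : SF V c k σ σ') (i : ι) :
    UC V k (fun p => (σ p).η i) (fun p => (σ' p).η i) := by
  refine (h.ρ.d (c i)).congr ?_ ?_
  · intro p w _
    simp only [Sl.η, dv, h.e p i]
  · intro p w _
    simp only [Sl.η, dv, h.e' p i]

variable [Fintype ι]

theorem SF.Γ (h : SF V c k σ σ') (hf : UD V j f g) (hf' : UD V j f' g') (hj : j ≤ k + 1) :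
    UC V j (fun p => (σ p).Γ (f p) (f' p)) (fun p => (σ' p).Γ (g p) (g' p)) := by
  unfold Sl.Γ
  exact UC.sum _ fun i _ => UC.sum _ fun l _ =>
    (((h.s i l).mono hj).mul (h.D hf hj i)).mul (h.D hf' hj l)

theorem SF.Λ (h : SF V c k σ σ') (hf : UD V (j + 1) f g) (hj : j ≤ k) :
    UC V j (fun p => (σ p).Λ (f p)) (fun p => (σ' p).Λ (g p)) := by
  unfold Sl.Λ
  refine UC.sum _ fun i _ => UC.sum _ fun l _ => ?_
  have h1 := h.D hf (Nat.succ_le_succ hj) l
  have h2 := h.D h1.ud (by omega) i
  have h3 := (h.D (h.s i l).ud (by omega) i).mono hj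
  have h4 := ((h.s i l).mono (by omega)).mul (h2.add (((h.kk i).mono hj).mul h1.pred))
  -- the first form of `Λ` has no divergence term
  first
  | exact h4
  | exact h4.add (h3.mul h1.pred)

end sf

end Vale.Agent.P088.R2.H973.W
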